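import Mathlib
import Vale.Agent.P268.Hol

/-! # Division of holomorphic functions along a smooth hypersurface, local form (helper757) -/

open Set Filter Metric Topology

namespace Vale.Agent.P267.H757

variable {E : Type*} [NormedAddCommGroup E] [NormedSpace ℂ E]

/-- One variable division. -/
theorem exists_quot_one {a b : ℂ → ℂ} {V : Set ℂ} (hV : IsOpen V)
    (ha : DifferentiableOn ℂ a V) (hb : DifferentiableOn ℂ b V)
    (hab : ∀ t ∈ V, b t = 0 → a t = 0) (hb' : ∀ t ∈ V, b t = 0 → deriv b t ≠ 0) :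
    ∃ k : ℂ → ℂ, DifferentiableOn ℂ k V ∧ ∀ t ∈ V, b t ≠ 0 → k t = a t / b t := by
  classical
  refine ⟨fun t => if b t = 0 then deriv a t / deriv b t else a t / b t, ?_, ?_⟩
  · intro t ht
    apply DifferentiableAt.differentiableWithinAt
    by_cases h0 : b t = 0
    · have hda : DifferentiableOn ℂ (dslope a t) V :=
        (Complex.differentiableOn_dslope (hV.mem_nhds ht)).2 ha
      have hdb : DifferentiableOn ℂ (dslope b t) V :=
        (Complex.differentiableOn_dslope (hV.mem_nhds ht)).2 hb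
      have hne : dslope b t t ≠ 0 := by
        rw [dslope_same]; exact hb' t ht h0
      have hd : DifferentiableAt ℂ (fun s => dslope a t s / dslope b t s) t :=
        (hda.differentiableAt (hV.mem_nhds ht)).div (hdb.differentiableAt (hV.mem_nhds ht)) hne
      refine hd.congr_of_eventuallyEq ?_
      have hev : ∀ᶠ s in 𝓝 t, dslope b t s ≠ 0 :=
        (hdb.differentiableAt (hV.mem_nhds ht)).continuousAt.eventually_ne hne
      filter_upwards [hev, hV.mem_nhds ht] with s hs hsV
      by_cases hst : s = t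
      · subst hst
        simp [h0, dslope_same]
      · have e1 : b s = (s - t) * dslope b t s := by
          rw [dslope_of_ne _ hst, slope_def_field, h0]
          field_simp [sub_ne_zero.2 hst]
          ring
        have e2 : a s = (s - t) * dslope a t s := by
          rw [dslope_of_ne _ hst, slope_def_field, hab t ht h0]
          field_simp [sub_ne_zero.2 hst]
          ring
        have hbs : b s ≠ 0 := by
          rw [e1]; exact mul_ne_zero (sub_ne_zero.2 hst) hs
        simp only [hbs, if_false]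
        rw [e1, e2, mul_div_mul_left _ _ (sub_ne_zero.2 hst)]
    · have hd : DifferentiableAt ℂ (fun s => a s / b s) t :=
        (ha.differentiableAt (hV.mem_nhds ht)).div (hb.differentiableAt (hV.mem_nhds ht)) h0
      refine hd.congr_of_eventuallyEq ?_
      filter_upwards [(hb.differentiableAt (hV.mem_nhds ht)).continuousAt.eventually_ne h0]
        with s hs
      simp [hs]
  · intro t _ h0
    simp [h0]

/-- The slice average of a holomorphic function is holomorphic. -/
theorem differentiableOn_slice [FiniteDimensional ℂ E] {f : E → ℂ} {W B : Set E} {v : E} {r : ℝ}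
    (hr : 0 < r) (hW : IsOpen W) (hf : DifferentiableOn ℂ f W) (hB : IsOpen B)
    (hBW : ∀ z ∈ B, ∀ t ∈ sphere (0 : ℂ) r, z + t • v ∈ W) :
    DifferentiableOn ℂ (fun z => ∮ t in C(0, r), t⁻¹ * f (z + t • v)) B := by
  intro z₀ hz₀
  apply DifferentiableAt.differentiableWithinAt
  -- tube lemma
  set O : Set (E × ℂ) := {q | q.1 ∈ B ∧ q.2 ≠ 0 ∧ q.1 + q.2 • v ∈ W} with hO
  have hOo : IsOpen O := by
    refine (hB.preimage continuous_fst).inter ((isOpen_ne.preimage continuous_snd).inter
      (hW.preimage ?_))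
    fun_prop
  obtain ⟨U', V', hU', hV', hz, hsp, hUV⟩ := generalized_tube_lemma
    (isCompact_singleton (x := z₀)) (isCompact_sphere (0 : ℂ) r) hOo (by
      rintro ⟨z, t⟩ ⟨hz, ht⟩
      have hz' : z = z₀ := hz
      subst hz'
      refine ⟨hz₀, ?_, hBW _ hz₀ _ ht⟩
      rintro rfl
      have : (0 : ℝ) = r := by simpa using ht
      linarith)
  have hG : DifferentiableOn ℂ (fun q : E × ℂ => q.2⁻¹ * f (q.1 + q.2 • v)) (U' ×ˢ V') := by
    intro q hq
    have hqO := hUV hq
    apply DifferentiableAt.differentiableWithinAt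
    refine DifferentiableAt.mul (differentiableAt_snd.inv hqO.2.1) ?_
    have h1 : DifferentiableAt ℂ (fun q : E × ℂ => q.1 + q.2 • v) q := by fun_prop
    exact DifferentiableAt.comp q (hf.differentiableAt (hW.mem_nhds hqO.2.2)) h1
  have := Vale.Agent.P268.differentiableOn_circleIntegral hr.le hU' hV' hsp hG
  exact this.differentiableAt (hU'.mem_nhds (hz rfl))

/-- **Division lemma**, local form: `h` vanishes on `{l = 0}`, `dl ≠ 0`, then `h = l q`. -/
theorem exists_quot [FiniteDimensional ℂ E] {l h : E → ℂ} {U : Set E} {p : E} (hU : IsOpen U)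
    (hp : p ∈ U) (hl : DifferentiableOn ℂ l U) (hh : DifferentiableOn ℂ h U)
    (hlh : ∀ z ∈ U, l z = 0 → h z = 0) (hlp : l p = 0) (hd : fderiv ℂ l p ≠ 0) :
    ∃ B : Set E, IsOpen B ∧ p ∈ B ∧ B ⊆ U ∧ ∃ q : E → ℂ, DifferentiableOn ℂ q B ∧
      ∀ z ∈ B, h z = l z * q z := by
  have : ProperSpace E := FiniteDimensional.proper ℂ E
  obtain ⟨v, hv⟩ : ∃ v, fderiv ℂ l p v ≠ 0 := by
    by_contra hcon
    push Not at hcon
    exact hd (ContinuousLinearMap.ext hcon)
  -- the derivative in direction v does not vanish near p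
  have hcd : ContinuousOn (fun z => fderiv ℂ l z v) U :=
    (Vale.Agent.P268.differentiableOn_fderiv_apply hU hl v).continuousOn
  set U1 : Set E := U ∩ (fun z => fderiv ℂ l z v) ⁻¹' {0}ᶜ with hU1
  have hU1o : IsOpen U1 := hcd.isOpen_inter_preimage hU isOpen_compl_singleton
  have hpU1 : p ∈ U1 := ⟨hp, hv⟩
  -- slices
  set b : E → ℂ → ℂ := fun z t => l (z + t • v) with hb
  have hbd : ∀ z t, z + t • v ∈ U1 → HasDerivAt (b z) (fderiv ℂ l (z + t • v) v) t := by
    intro z t hzt
    have h1 : HasDerivAt (fun t : ℂ => z + t • v) v t := by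
      simpa using ((hasDerivAt_id t).smul_const v).const_add z
    have h2 : HasFDerivAt l (fderiv ℂ l (z + t • v)) (z + t • v) :=
      (hl.differentiableAt (hU.mem_nhds hzt.1)).hasFDerivAt
    exact h2.comp_hasDerivAt t h1
  -- choose r
  obtain ⟨r, hr, hrU, hrne⟩ : ∃ r > 0, (∀ t ∈ closedBall (0 : ℂ) r, p + t • v ∈ U1) ∧
      ∀ t ∈ sphere (0 : ℂ) r, l (p + t • v) ≠ 0 := by
    have h1 : ∀ᶠ t in 𝓝 (0 : ℂ), p + t • v ∈ U1 := by
      have hc : ContinuousAt (fun t : ℂ => p + t • v) 0 := by fun_prop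
      apply hc.preimage_mem_nhds
      simpa using hU1o.mem_nhds hpU1
    have h2 : ∀ᶠ t in 𝓝[≠] (0 : ℂ), b p t ≠ 0 := by
      have h3 := hbd p 0 (by simpa using hpU1)
      have h4 := h3.eventually_ne (c := 0) (by simpa using hv)
      exact h4
    rw [eventually_nhdsWithin_iff] at h2
    obtain ⟨ε, hε, hball⟩ := Metric.eventually_nhds_iff_ball.1 (h1.and h2)
    refine ⟨ε / 2, by positivity, fun t ht => ?_, fun t ht => ?_⟩
    · exact (hball t (by
        rw [mem_ball_zero_iff]; rw [mem_closedBall_zero_iff] at ht; linarith)).1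
    · have ht' : ‖t‖ = ε / 2 := by simpa using ht
      refine (hball t (by rw [mem_ball_zero_iff, ht']; linarith)).2 ?_
      rintro rfl
      simp at ht'
      linarith
  -- choose B
  set W : Set E := U1 ∩ l ⁻¹' {0}ᶜ with hWdef
  have hWo : IsOpen W :=
    (hl.continuousOn.mono inter_subset_left).isOpen_inter_preimage hU1o isOpen_compl_singleton
  obtain ⟨B, hBo, hpB, hBU, hBW⟩ : ∃ B : Set E, IsOpen B ∧ p ∈ B ∧
      (∀ z ∈ B, ∀ t ∈ closedBall (0 : ℂ) r, z + t • v ∈ U1) ∧
      (∀ z ∈ B, ∀ t ∈ sphere (0 : ℂ) r, z + t • v ∈ W) := by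
    obtain ⟨A1, V1, hA1, hV1, hz1, hs1, hAV1⟩ := generalized_tube_lemma
      (isCompact_singleton (x := p)) (isCompact_closedBall (0 : ℂ) r)
      (n := (fun q : E × ℂ => q.1 + q.2 • v) ⁻¹' U1) (hU1o.preimage (by fun_prop)) (by
        rintro ⟨z, t⟩ ⟨hz, ht⟩
        have hz' : z = p := hz
        subst hz'
        exact hrU t ht)
    obtain ⟨A2, V2, hA2, hV2, hz2, hs2, hAV2⟩ := generalized_tube_lemma
      (isCompact_singleton (x := p)) (isCompact_sphere (0 : ℂ) r)
      (n := (fun q : E × ℂ => q.1 + q.2 • v) ⁻¹' W) (hWo.preimage (by fun_prop)) (by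
        rintro ⟨z, t⟩ ⟨hz, ht⟩
        have hz' : z = p := hz
        subst hz'
        exact ⟨hrU t (sphere_subset_closedBall ht), hrne t ht⟩)
    exact ⟨A1 ∩ A2, hA1.inter hA2, ⟨hz1 rfl, hz2 rfl⟩,
      fun z hz t ht => hAV1 (mk_mem_prod hz.1 (hs1 ht)),
      fun z hz t ht => hAV2 (mk_mem_prod hz.2 (hs2 ht))⟩
  have hBU' : B ⊆ U := fun z hz => by
    have := hBU z hz 0 (by simp [hr.le])
    simpa using this.1
  have hfW : DifferentiableOn ℂ (fun z => h z / l z) W := by
    have hWU : W ⊆ U := fun z hz => hz.1.1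
    intro z hz
    have h1 := (hh.mono hWU) z hz
    have h2 := ((hl.mono hWU) z hz).inv hz.2
    have h3 := h1.mul h2
    refine h3.congr_of_eventuallyEq (Eventually.of_forall fun y => ?_) ?_ <;>
      simp [div_eq_mul_inv]
  refine ⟨B, hBo, hpB, hBU', fun z => (2 * Real.pi * Complex.I : ℂ)⁻¹ *
    ∮ t in C(0, r), t⁻¹ * (h (z + t • v) / l (z + t • v)),
    (differentiableOn_slice hr hWo hfW hBo hBW).const_mul _, fun z hz => ?_⟩
  by_cases hlz : l z = 0
  · rw [hlz, hlh z (hBU' hz) hlz, zero_mul]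
  · -- Cauchy formula for the slice
    set V : Set ℂ := (fun t : ℂ => z + t • v) ⁻¹' U1 with hVdef
    have hVo : IsOpen V := hU1o.preimage (by fun_prop)
    have haff : ∀ t : ℂ, DifferentiableAt ℂ (fun t : ℂ => z + t • v) t := fun t => by fun_prop
    obtain ⟨k, hk, hkq⟩ := exists_quot_one (a := fun t => h (z + t • v)) (b := b z) hVo
      (fun t ht => (DifferentiableAt.comp t (hh.differentiableAt (hU.mem_nhds ht.1))
        (haff t)).differentiableWithinAt)
      (fun t ht => (DifferentiableAt.comp t (hl.differentiableAt (hU.mem_nhds ht.1))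
        (haff t)).differentiableWithinAt)
      (fun t ht h0 => hlh _ ht.1 h0)
      (fun t ht _ => by rw [(hbd z t ht).deriv]; exact ht.2)
    have hsub : closedBall (0 : ℂ) r ⊆ V := fun t ht => hBU z hz t ht
    have hcf := (hk.diffContOnCl_ball hsub).circleIntegral_sub_inv_smul
      (mem_ball_self hr : (0 : ℂ) ∈ ball (0 : ℂ) r)
    have hk0 : k 0 = h z / l z := by
      have := hkq 0 (hsub (by simp [hr.le])) (by simpa [hb] using hlz)
      simpa [hb] using this
    have hint : (∮ t in C(0, r), t⁻¹ * (h (z + t • v) / l (z + t • v))) =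
        ∮ t in C(0, r), (t - 0)⁻¹ • k t := by
      refine circleIntegral.integral_congr hr.le (fun t ht => ?_)
      have ht2 := hBW z hz t ht
      have := hkq t (hsub (sphere_subset_closedBall ht)) ht2.2
      simp only [sub_zero, smul_eq_mul]
      rw [this]
    beta_reduce
    rw [hint, hcf, hk0, smul_eq_mul]
    have hpi : (2 * Real.pi * Complex.I : ℂ) ≠ 0 := by
      simp [Real.pi_ne_zero]
    field_simp

end Vale.Agent.P267.H757
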