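import Mathlib
import Vale.Agent.P268.Hol

/-! # Real structure of a complex manifold, holomorphic functions are smooth (helper757) -/

open Set Filter Metric Topology
open scoped Manifold ContDiff

namespace Vale.Agent.P267.H757

variable {E : Type*} [NormedAddCommGroup E] [NormedSpace ℂ E]
variable {F : Type*} [NormedAddCommGroup F] [NormedSpace ℂ F]
variable {M : Type*} [TopologicalSpace M] [ChartedSpace E M]
variable {N : Type*} [TopologicalSpace N] [ChartedSpace F N]

/-- Complex smooth maps are real smooth. -/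
theorem contMDiffWithinAt_real {n : WithTop ℕ∞} {f : M → N} {s : Set M} {x : M}
    (h : ContMDiffWithinAt 𝓘(ℂ, E) 𝓘(ℂ, F) n f s x) :
    ContMDiffWithinAt 𝓘(ℝ, E) 𝓘(ℝ, F) n f s x := by
  rw [contMDiffWithinAt_iff] at h ⊢
  refine ⟨h.1, ?_⟩
  have h2 := h.2.restrict_scalars ℝ
  simpa only [mfld_simps, extChartAt, OpenPartialHomeomorph.extend] using h2

theorem contMDiffAt_real {n : WithTop ℕ∞} {f : M → N} {x : M}
    (h : ContMDiffAt 𝓘(ℂ, E) 𝓘(ℂ, F) n f x) :
    ContMDiffAt 𝓘(ℝ, E) 𝓘(ℝ, F) n f x :=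
  contMDiffWithinAt_real h

theorem contMDiffOn_real {n : WithTop ℕ∞} {f : M → N} {s : Set M}
    (h : ContMDiffOn 𝓘(ℂ, E) 𝓘(ℂ, F) n f s) :
    ContMDiffOn 𝓘(ℝ, E) 𝓘(ℝ, F) n f s :=
  fun x hx => contMDiffWithinAt_real (h x hx)

theorem contMDiff_real {n : WithTop ℕ∞} {f : M → N}
    (h : ContMDiff 𝓘(ℂ, E) 𝓘(ℂ, F) n f) :
    ContMDiff 𝓘(ℝ, E) 𝓘(ℝ, F) n f :=
  fun x => contMDiffAt_real (h x)

/-- The real manifold structure of a complex manifold. -/
theorem isManifold_real (n : WithTop ℕ∞) [h : IsManifold 𝓘(ℂ, E) n M] :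
    IsManifold 𝓘(ℝ, E) n M := by
  apply isManifold_of_contDiffOn
  intro e e' he he'
  have h1 := (contDiffGroupoid n 𝓘(ℂ, E)).compatible he he'
  rw [contDiffGroupoid, mem_groupoid_of_pregroupoid] at h1
  have h2 := h1.1
  simp only [contDiffPregroupoid, modelWithCornersSelf_coe, modelWithCornersSelf_coe_symm,
    Function.comp_id, Function.id_comp, range_id, inter_univ, preimage_id_eq, id_eq] at h2 ⊢
  exact h2.restrict_scalars ℝ

end Vale.Agent.P267.H757
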