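import Mathlib
import Vale.Agent.P267.H757.NF0

/-! # Holomorphic functions on complex manifolds (helper757) -/

open Set Filter Metric Topology
open scoped Manifold ContDiff

namespace Vale.Agent.P267.H757

variable {E : Type*} [NormedAddCommGroup E] [NormedSpace ℂ E]
variable {F : Type*} [NormedAddCommGroup F] [NormedSpace ℂ F]
variable {M : Type*} [TopologicalSpace M] [ChartedSpace E M]

/-- A holomorphic function read in a chart is holomorphic. -/
theorem differentiableOn_chart [IsManifold 𝓘(ℂ, E) 1 M] {g : M → F} {U : Set M}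
    {e : OpenPartialHomeomorph M E} (he : e ∈ IsManifold.maximalAtlas 𝓘(ℂ, E) 1 M)
    (hg : MDifferentiableOn 𝓘(ℂ, E) 𝓘(ℂ, F) g U) :
    DifferentiableOn ℂ (g ∘ e.symm) (e.target ∩ e.symm ⁻¹' U) := by
  rw [← mdifferentiableOn_iff_differentiableOn]
  refine hg.comp ?_ inter_subset_right
  exact ((contMDiffOn_symm_of_mem_maximalAtlas he).mdifferentiableOn (by norm_num)).mono
    inter_subset_left

/-- A function which is holomorphic in a chart is holomorphic. -/
theorem mdifferentiableOn_of_chart [IsManifold 𝓘(ℂ, E) 1 M] {g : M → F} {U : Set M}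
    {e : OpenPartialHomeomorph M E} (he : e ∈ IsManifold.maximalAtlas 𝓘(ℂ, E) 1 M)
    (hU : U ⊆ e.source)
    (hg : DifferentiableOn ℂ (g ∘ e.symm) (e.target ∩ e.symm ⁻¹' U)) :
    MDifferentiableOn 𝓘(ℂ, E) 𝓘(ℂ, F) g U := by
  rw [← mdifferentiableOn_iff_differentiableOn] at hg
  have h1 : MDifferentiableOn 𝓘(ℂ, E) 𝓘(ℂ, E) e U :=
    ((contMDiffOn_of_mem_maximalAtlas he).mdifferentiableOn (by norm_num)).mono hU
  have h2 := hg.comp h1 (fun x hx => ⟨e.map_source (hU hx), by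
    rw [mem_preimage, e.left_inv (hU hx)]; exact hx⟩)
  refine h2.congr (fun x hx => ?_)
  simp [e.left_inv (hU hx)]

/-- Holomorphic functions on open sets are analytic (`ContMDiffOn ω`). -/
theorem contMDiffOn_of_mdifferentiableOn [FiniteDimensional ℂ E] [CompleteSpace F]
    [IsManifold 𝓘(ℂ, E) ω M] {g : M → F} {U : Set M} (hU : IsOpen U)
    (hg : MDifferentiableOn 𝓘(ℂ, E) 𝓘(ℂ, F) g U) :
    ContMDiffOn 𝓘(ℂ, E) 𝓘(ℂ, F) ω g U := by
  have : IsManifold 𝓘(ℂ, E) 1 M := IsManifold.of_le (n := ω) le_top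
  intro x hx
  set e := chartAt E x with hedef
  have he : e ∈ IsManifold.maximalAtlas 𝓘(ℂ, E) ω M := IsManifold.chart_mem_maximalAtlas x
  have he1 : e ∈ IsManifold.maximalAtlas 𝓘(ℂ, E) 1 M := IsManifold.chart_mem_maximalAtlas x
  have h1 := differentiableOn_chart he1 hg
  have hopen : IsOpen (e.target ∩ e.symm ⁻¹' U) := e.isOpen_inter_preimage_symm hU
  have hxm : e x ∈ e.target ∩ e.symm ⁻¹' U :=
    ⟨mem_chart_target E x, by
      rw [mem_preimage, e.left_inv (mem_chart_source E x)]; exact hx⟩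
  have h2 : AnalyticOnNhd ℂ (g ∘ e.symm) (e.target ∩ e.symm ⁻¹' U) :=
    Vale.Agent.P268.analyticOnNhd_of_differentiableOn hopen h1
  have h3 : ContMDiffOn 𝓘(ℂ, E) 𝓘(ℂ, F) ω (g ∘ e.symm) (e.target ∩ e.symm ⁻¹' U) :=
    contMDiffOn_iff_contDiffOn.2 (h2.contDiffOn hopen.uniqueDiffOn)
  have h4 : ContMDiffOn 𝓘(ℂ, E) 𝓘(ℂ, E) ω e (U ∩ e.source) :=
    (contMDiffOn_of_mem_maximalAtlas he).mono inter_subset_right
  have h5 := h3.comp h4 (fun y hy => ⟨e.map_source hy.2, by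
    rw [mem_preimage, e.left_inv hy.2]; exact hy.1⟩)
  have h6 : ContMDiffOn 𝓘(ℂ, E) 𝓘(ℂ, F) ω g (U ∩ e.source) := by
    refine h5.congr (fun y hy => ?_)
    simp [e.left_inv hy.2]
  have h7 := h6.contMDiffAt ((hU.inter e.open_source).mem_nhds ⟨hx, mem_chart_source E x⟩)
  exact h7.contMDiffWithinAt

/-- Holomorphic functions on open sets are real smooth. -/
theorem smoothOn_of_mdifferentiableOn [FiniteDimensional ℂ E] [CompleteSpace F]
    [IsManifold 𝓘(ℂ, E) ω M] {g : M → F} {U : Set M} (hU : IsOpen U)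
    (hg : MDifferentiableOn 𝓘(ℂ, E) 𝓘(ℂ, F) g U) {n : WithTop ℕ∞} :
    ContMDiffOn 𝓘(ℝ, E) 𝓘(ℝ, F) n g U :=
  (contMDiffOn_real (contMDiffOn_of_mdifferentiableOn hU hg)).of_le le_top

end Vale.Agent.P267.H757
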