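import Mathlib
import Vale.Agent.P267.H757.NF1

/-! # Norm functions (helper757): definition and algebra -/

open Set Filter Metric Topology
open scoped Manifold ContDiff

namespace Vale.Agent.P267.H757

/-- `(U, g, φ)` is a local representation `N = ‖g‖² e^{-φ}` of `N` on the open set `U`, with `g`
holomorphic and not vanishing identically on any nonempty open set, and `φ` real smooth. -/
structure LocRep (E : Type*) [NormedAddCommGroup E] [NormedSpace ℂ E]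
    {M : Type*} [TopologicalSpace M] [ChartedSpace E M]
    (N : M → ℝ) (U : Set M) (g : M → ℂ) (φ : M → ℝ) : Prop where
  isOpen : IsOpen U
  hol : MDifferentiableOn 𝓘(ℂ, E) 𝓘(ℂ) g U
  nz : ∀ V : Set M, IsOpen V → V ⊆ U → V.Nonempty → ∃ x ∈ V, g x ≠ 0
  smooth : ContMDiffOn 𝓘(ℝ, E) 𝓘(ℝ) ∞ φ U
  eq : ∀ x ∈ U, N x = ‖g x‖ ^ 2 * Real.exp (-φ x)

/-- Norm functions on a subset: local squared norms of holomorphic sections. -/
def IsNormFnOn (E : Type*) [NormedAddCommGroup E] [NormedSpace ℂ E]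
    {M : Type*} [TopologicalSpace M] [ChartedSpace E M] (N : M → ℝ) (W : Set M) : Prop :=
  ∀ p ∈ W, ∃ (U : Set M) (g : M → ℂ) (φ : M → ℝ), p ∈ U ∧ LocRep E N U g φ

/-- Norm functions: `N` is locally the squared norm of a holomorphic section of a Hermitian
line bundle, which does not vanish identically on any nonempty open set. -/
def IsNormFn (E : Type*) [NormedAddCommGroup E] [NormedSpace ℂ E]
    {M : Type*} [TopologicalSpace M] [ChartedSpace E M] (N : M → ℝ) : Prop :=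
  ∀ p, ∃ (U : Set M) (g : M → ℂ) (φ : M → ℝ), p ∈ U ∧ LocRep E N U g φ

section

variable {E : Type*} [NormedAddCommGroup E] [NormedSpace ℂ E]
variable {M : Type*} [TopologicalSpace M] [ChartedSpace E M]
variable {N N' : M → ℝ} {U U' W W' : Set M} {g g' : M → ℂ} {φ φ' : M → ℝ}

theorem isNormFn_iff : IsNormFn E N ↔ IsNormFnOn E N univ := by
  simp [IsNormFn, IsNormFnOn]

theorem IsNormFn.on (h : IsNormFn E N) (W : Set M) : IsNormFnOn E N W := fun p _ => h p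

theorem IsNormFnOn.mono (h : IsNormFnOn E N W) (hW : W' ⊆ W) : IsNormFnOn E N W' :=
  fun p hp => h p (hW hp)

theorem LocRep.continuousOn (h : LocRep E N U g φ) : ContinuousOn g U := h.hol.continuousOn

theorem LocRep.mono (h : LocRep E N U g φ) (hU : IsOpen U') (hUU : U' ⊆ U) :
    LocRep E N U' g φ :=
  ⟨hU, h.hol.mono hUU, fun V hV hVU hne => h.nz V hV (hVU.trans hUU) hne, h.smooth.mono hUU,
    fun x hx => h.eq x (hUU hx)⟩

theorem LocRep.congr (h : LocRep E N U g φ) (hN : ∀ x ∈ U, N' x = N x) : LocRep E N' U g φ :=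
  ⟨h.isOpen, h.hol, h.nz, h.smooth, fun x hx => by rw [hN x hx, h.eq x hx]⟩

/-- The set where a local equation does not vanish meets every nonempty open set. -/
theorem LocRep.exists_ne (h : LocRep E N U g φ) {V : Set M} (hV : IsOpen V) (hVU : V ⊆ U)
    (hne : V.Nonempty) : ∃ V' : Set M, IsOpen V' ∧ V' ⊆ V ∧ V'.Nonempty ∧ ∀ x ∈ V', g x ≠ 0 := by
  obtain ⟨x, hxV, hx⟩ := h.nz V hV hVU hne
  refine ⟨V ∩ g ⁻¹' {0}ᶜ, (h.continuousOn.mono hVU).isOpen_inter_preimage hV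
    isOpen_compl_singleton, inter_subset_left, ⟨x, hxV, hx⟩, fun y hy => hy.2⟩

theorem mdiffOn_mul {f₁ f₂ : M → ℂ} {s : Set M} (h₁ : MDifferentiableOn 𝓘(ℂ, E) 𝓘(ℂ) f₁ s)
    (h₂ : MDifferentiableOn 𝓘(ℂ, E) 𝓘(ℂ) f₂ s) :
    MDifferentiableOn 𝓘(ℂ, E) 𝓘(ℂ) (fun x => f₁ x * f₂ x) s :=
  fun x hx => (h₁ x hx).mul (h₂ x hx)

theorem LocRep.mul (h : LocRep E N U g φ) (h' : LocRep E N' U' g' φ') :
    LocRep E (fun x => N x * N' x) (U ∩ U') (fun x => g x * g' x) (fun x => φ x + φ' x) := by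
  refine ⟨h.isOpen.inter h'.isOpen, mdiffOn_mul (h.hol.mono inter_subset_left)
    (h'.hol.mono inter_subset_right), ?_, ?_, ?_⟩
  · intro V hV hVU hne
    obtain ⟨V', hV', hV'V, hne', hn'⟩ := h.exists_ne hV (hVU.trans inter_subset_left) hne
    obtain ⟨x, hx, hx'⟩ := h'.nz V' hV' (hV'V.trans (hVU.trans inter_subset_right)) hne'
    exact ⟨x, hV'V hx, mul_ne_zero (hn' x hx) hx'⟩
  · exact (h.smooth.mono inter_subset_left).add (h'.smooth.mono inter_subset_right)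
  · intro x hx
    rw [h.eq x hx.1, h'.eq x hx.2, norm_mul, neg_add, Real.exp_add]
    ring

theorem IsNormFnOn.mul (h : IsNormFnOn E N W) (h' : IsNormFnOn E N' W) :
    IsNormFnOn E (fun x => N x * N' x) W := by
  intro p hp
  obtain ⟨U, g, φ, hpU, hr⟩ := h p hp
  obtain ⟨U', g', φ', hpU', hr'⟩ := h' p hp
  exact ⟨U ∩ U', _, _, ⟨hpU, hpU'⟩, hr.mul hr'⟩

theorem IsNormFn.mul (h : IsNormFn E N) (h' : IsNormFn E N') :
    IsNormFn E (fun x => N x * N' x) :=
  isNormFn_iff.2 ((isNormFn_iff.1 h).mul (isNormFn_iff.1 h'))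

/-- Positive smooth functions are norm functions. -/
theorem locRep_exp (hU : IsOpen U) (hφ : ContMDiffOn 𝓘(ℝ, E) 𝓘(ℝ) ∞ φ U) :
    LocRep E (fun x => Real.exp (-φ x)) U (fun _ => 1) φ :=
  ⟨hU, mdifferentiableOn_const, fun V _ _ hne => ⟨hne.some, hne.some_mem, one_ne_zero⟩, hφ,
    fun x _ => by simp⟩

theorem isNormFn_exp (hφ : ContMDiff 𝓘(ℝ, E) 𝓘(ℝ) ∞ φ) :
    IsNormFn E (fun x => Real.exp (-φ x)) :=
  fun p => ⟨univ, _, _, mem_univ p, locRep_exp isOpen_univ hφ.contMDiffOn⟩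

theorem isNormFn_one : IsNormFn E (fun _ : M => (1 : ℝ)) := by
  have h := isNormFn_exp (E := E) (M := M) (φ := fun _ => 0) contMDiff_const
  simpa using h

/-- A positive smooth function is a norm function. -/
theorem isNormFnOn_of_pos (hW : IsOpen W) (hN : ContMDiffOn 𝓘(ℝ, E) 𝓘(ℝ) ∞ N W)
    (hpos : ∀ x ∈ W, 0 < N x) : IsNormFnOn E N W := by
  intro p hp
  refine ⟨W, fun _ => 1, fun x => -Real.log (N x), hp, ?_⟩
  have h1 : ContMDiffOn 𝓘(ℝ, E) 𝓘(ℝ) ∞ (fun x => -Real.log (N x)) W := by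
    have h2 : ContMDiffOn 𝓘(ℝ) 𝓘(ℝ) ∞ (fun y : ℝ => -Real.log y) (Ioi 0) := by
      rw [contMDiffOn_iff_contDiffOn]
      exact ContDiffOn.neg (contDiffOn_id.log (fun x hx => ne_of_gt hx))
    exact h2.comp hN (fun x hx => hpos x hx)
  refine (locRep_exp hW h1).congr (fun x hx => ?_)
  rw [neg_neg, Real.exp_log (hpos x hx)]

theorem isNormFn_of_pos (hN : ContMDiff 𝓘(ℝ, E) 𝓘(ℝ) ∞ N) (hpos : ∀ x, 0 < N x) :
    IsNormFn E N :=
  isNormFn_iff.2 (isNormFnOn_of_pos isOpen_univ hN.contMDiffOn (fun x _ => hpos x))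

theorem IsNormFnOn.pow (h : IsNormFnOn E N W) (k : ℕ) : IsNormFnOn E (fun x => N x ^ k) W := by
  induction k with
  | zero => simpa using (isNormFn_one (E := E) (M := M)).on W
  | succ k ih => simpa only [pow_succ] using ih.mul h

theorem IsNormFn.pow (h : IsNormFn E N) (k : ℕ) : IsNormFn E (fun x => N x ^ k) :=
  isNormFn_iff.2 ((isNormFn_iff.1 h).pow k)

theorem isNormFnOn_prod {ι : Type*} (s : Finset ι) {N : ι → M → ℝ}
    (h : ∀ i ∈ s, IsNormFnOn E (N i) W) : IsNormFnOn E (fun x => ∏ i ∈ s, N i x) W := by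
  classical
  induction s using Finset.induction_on with
  | empty => simpa using (isNormFn_one (E := E) (M := M)).on W
  | insert a s has ih =>
    simp only [Finset.prod_insert has]
    exact (h a (Finset.mem_insert_self a s)).mul
      (ih (fun i hi => h i (Finset.mem_insert_of_mem hi)))

theorem isNormFn_prod {ι : Type*} (s : Finset ι) {N : ι → M → ℝ}
    (h : ∀ i ∈ s, IsNormFn E (N i)) : IsNormFn E (fun x => ∏ i ∈ s, N i x) :=
  isNormFn_iff.2 (isNormFnOn_prod s (fun i hi => isNormFn_iff.1 (h i hi)))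

/-- A locally finite product of norm functions is a norm function. -/
theorem isNormFn_finprod {ι : Type*} {N : ι → M → ℝ} (h : ∀ i, IsNormFn E (N i))
    (hlf : LocallyFinite (fun i => Function.mulSupport (N i))) :
    IsNormFn E (fun x => ∏ᶠ i, N i x) := by
  intro p
  obtain ⟨I, hI⟩ := hlf.exists_finset_mulSupport p
  obtain ⟨U, g, φ, hpU, hr⟩ := isNormFn_prod I (fun i _ => h i) p
  obtain ⟨U', hU', hU'o, hpU'⟩ := mem_nhds_iff.1 hI
  refine ⟨U ∩ U', g, φ, ⟨hpU, hpU'⟩, (hr.mono (hr.isOpen.inter hU'o) inter_subset_left).congr ?_⟩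
  intro x hx
  exact finprod_eq_prod_of_mulSupport_subset _ (hU' hx.2)

theorem LocRep.nonneg (h : LocRep E N U g φ) {x : M} (hx : x ∈ U) : 0 ≤ N x := by
  rw [h.eq x hx]; positivity

theorem LocRep.eq_zero_iff (h : LocRep E N U g φ) {x : M} (hx : x ∈ U) : N x = 0 ↔ g x = 0 := by
  rw [h.eq x hx]
  simp [Real.exp_ne_zero]

theorem LocRep.ne_zero_iff (h : LocRep E N U g φ) {x : M} (hx : x ∈ U) : N x ≠ 0 ↔ g x ≠ 0 :=
  not_congr (h.eq_zero_iff hx)

theorem IsNormFnOn.nonneg (h : IsNormFnOn E N W) {x : M} (hx : x ∈ W) : 0 ≤ N x := by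
  obtain ⟨U, g, φ, hxU, hr⟩ := h x hx
  exact hr.nonneg hxU

theorem IsNormFn.nonneg (h : IsNormFn E N) (x : M) : 0 ≤ N x :=
  (h.on univ).nonneg (mem_univ x)

end

section smooth

variable {E : Type*} [NormedAddCommGroup E] [NormedSpace ℂ E] [FiniteDimensional ℂ E]
variable {M : Type*} [TopologicalSpace M] [ChartedSpace E M] [IsManifold 𝓘(ℂ, E) ω M]
variable {N N' : M → ℝ} {U U' W W' : Set M} {g g' : M → ℂ} {φ φ' : M → ℝ}

/-- The squared norm of a holomorphic function is smooth. -/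
theorem smoothOn_normSq (hU : IsOpen U) (hg : MDifferentiableOn 𝓘(ℂ, E) 𝓘(ℂ) g U) :
    ContMDiffOn 𝓘(ℝ, E) 𝓘(ℝ) ∞ (fun x => ‖g x‖ ^ 2) U := by
  have h1 : ContMDiffOn 𝓘(ℝ, E) 𝓘(ℝ, ℂ) ∞ g U := smoothOn_of_mdifferentiableOn hU hg
  have h2 : ContMDiff 𝓘(ℝ, ℂ) 𝓘(ℝ) ∞ (fun z : ℂ => ‖z‖ ^ 2) := by
    rw [contMDiff_iff_contDiff]
    exact contDiff_norm_sq ℝ
  exact h2.comp_contMDiffOn h1

theorem LocRep.smoothOn (h : LocRep E N U g φ) : ContMDiffOn 𝓘(ℝ, E) 𝓘(ℝ) ∞ N U := by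
  have h1 := smoothOn_normSq h.isOpen h.hol
  have h2 : ContMDiffOn 𝓘(ℝ, E) 𝓘(ℝ) ∞ (fun x => Real.exp (-φ x)) U := by
    have h3 : ContMDiff 𝓘(ℝ) 𝓘(ℝ) ∞ (fun y : ℝ => Real.exp (-y)) := by
      rw [contMDiff_iff_contDiff]
      exact Real.contDiff_exp.comp contDiff_neg
    exact h3.comp_contMDiffOn h.smooth
  exact (h1.mul h2).congr h.eq

theorem IsNormFnOn.smoothAt (h : IsNormFnOn E N W) {x : M} (hx : x ∈ W) :
    ContMDiffAt 𝓘(ℝ, E) 𝓘(ℝ) ∞ N x := by
  obtain ⟨U, g, φ, hxU, hr⟩ := h x hx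
  exact hr.smoothOn.contMDiffAt (hr.isOpen.mem_nhds hxU)

/-- Norm functions are smooth. -/
theorem IsNormFn.smooth (h : IsNormFn E N) : ContMDiff 𝓘(ℝ, E) 𝓘(ℝ) ∞ N :=
  fun x => (h.on univ).smoothAt (mem_univ x)

theorem IsNormFn.continuous (h : IsNormFn E N) : Continuous N := h.smooth.continuous

theorem IsNormFn.isClosed_zero (h : IsNormFn E N) : IsClosed {x | N x = 0} :=
  isClosed_eq h.continuous continuous_const

omit [FiniteDimensional ℂ E] [IsManifold 𝓘(ℂ, E) ω M] in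
/-- The zero set of a norm function has empty interior. -/
theorem IsNormFn.interior_zero (h : IsNormFn E N) : interior {x | N x = 0} = ∅ := by
  by_contra hne
  obtain ⟨x, hx⟩ := nonempty_iff_ne_empty.2 hne
  obtain ⟨U, g, φ, hxU, hr⟩ := h x
  obtain ⟨y, hy, hgy⟩ := hr.nz (interior {x | N x = 0} ∩ U) (isOpen_interior.inter hr.isOpen)
    inter_subset_right ⟨x, hx, hxU⟩
  have h1 : y ∈ {x | N x = 0} := interior_subset hy.1
  exact hgy ((hr.eq_zero_iff hy.2).1 h1)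

omit [FiniteDimensional ℂ E] [IsManifold 𝓘(ℂ, E) ω M] in
theorem IsNormFn.dense_ne_zero (h : IsNormFn E N) : Dense {x | N x ≠ 0} := by
  have := interior_eq_empty_iff_dense_compl.1 h.interior_zero
  exact this

end smooth

end Vale.Agent.P267.H757
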