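import Mathlib
import Vale.Agent.P267.H757.Div
import Vale.Agent.P267.H757.NF2

/-! # Norm functions (helper757): the norm function of a smooth closed hypersurface -/

open Set Filter Metric Topology
open scoped Manifold ContDiff

namespace Vale.Agent.P267.H757

/-- `l` is a local equation of `C` on the open set `U`, with nonvanishing differential along `C`. -/
structure IsDef (E : Type*) [NormedAddCommGroup E] [NormedSpace ℂ E]
    {M : Type*} [TopologicalSpace M] [ChartedSpace E M]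
    (C : Set M) (U : Set M) (l : M → ℂ) : Prop where
  isOpen : IsOpen U
  hol : MDifferentiableOn 𝓘(ℂ, E) 𝓘(ℂ) l U
  zero_iff : ∀ x ∈ U, l x = 0 ↔ x ∈ C
  reg : ∀ x ∈ U, x ∈ C → mfderiv 𝓘(ℂ, E) 𝓘(ℂ) l x ≠ 0

/-- A closed subset which is locally a smooth hypersurface. -/
structure IsCurve (E : Type*) [NormedAddCommGroup E] [NormedSpace ℂ E]
    {M : Type*} [TopologicalSpace M] [ChartedSpace E M] (C : Set M) : Prop where
  isClosed : IsClosed C
  exists_def : ∀ p ∈ C, ∃ (U : Set M) (l : M → ℂ), p ∈ U ∧ IsDef E C U l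

section

variable {E : Type*} [NormedAddCommGroup E] [NormedSpace ℂ E]
variable {M : Type*} [TopologicalSpace M] [ChartedSpace E M]
variable {C U U' V : Set M} {l l' h : M → ℂ}

theorem IsDef.mono (hd : IsDef E C U l) (hV : IsOpen V) (hVU : V ⊆ U) : IsDef E C V l :=
  ⟨hV, hd.hol.mono hVU, fun x hx => hd.zero_iff x (hVU hx), fun x hx => hd.reg x (hVU hx)⟩

theorem isDef_compl (hC : IsClosed C) : IsDef E C Cᶜ (fun _ => (1 : ℂ)) :=
  ⟨hC.isOpen_compl, mdifferentiableOn_const, fun x hx => by simpa using hx,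
    fun x hx hx' => absurd hx' hx⟩

/-- A hypersurface has empty interior. -/
theorem IsDef.exists_notMem (hd : IsDef E C U l) (hV : IsOpen V) (hVU : V ⊆ U)
    (hne : V.Nonempty) : ∃ x ∈ V, x ∉ C := by
  by_contra hcon
  push Not at hcon
  obtain ⟨x, hx⟩ := hne
  refine hd.reg x (hVU hx) (hcon x hx) ?_
  have h1 : l =ᶠ[𝓝 x] fun _ => (0 : ℂ) := by
    filter_upwards [hV.mem_nhds hx] with y hy
    exact (hd.zero_iff y (hVU hy)).2 (hcon y hy)
  rw [h1.mfderiv_eq]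
  exact mfderiv_const

theorem IsDef.exists_ne (hd : IsDef E C U l) (hV : IsOpen V) (hVU : V ⊆ U)
    (hne : V.Nonempty) : ∃ x ∈ V, l x ≠ 0 := by
  obtain ⟨x, hx, hxC⟩ := hd.exists_notMem hV hVU hne
  exact ⟨x, hx, fun h0 => hxC ((hd.zero_iff x (hVU hx)).1 h0)⟩

theorem IsCurve.exists_notMem (hC : IsCurve E C) (hV : IsOpen V) (hne : V.Nonempty) :
    ∃ x ∈ V, x ∉ C := by
  obtain ⟨x, hx⟩ := hne
  by_cases hxC : x ∈ C
  · obtain ⟨U, l, hxU, hd⟩ := hC.exists_def x hxC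
    obtain ⟨y, hy, hyC⟩ := hd.exists_notMem (hV.inter hd.isOpen) inter_subset_right ⟨x, hx, hxU⟩
    exact ⟨y, hy.1, hyC⟩
  · exact ⟨x, hx, hxC⟩

theorem IsCurve.dense_compl (hC : IsCurve E C) : Dense Cᶜ := by
  rw [dense_iff_inter_open]
  intro V hV hne
  obtain ⟨x, hx, hxC⟩ := hC.exists_notMem hV hne
  exact ⟨x, hx, hxC⟩

/-- Quotients by a local equation are unique. -/
theorem IsDef.quot_unique (hd : IsDef E C U l) {B : Set M} (hB : IsOpen B) (hBU : B ⊆ U)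
    {F : Type*} [TopologicalSpace F] [T2Space F]
    {q₁ q₂ : M → F} (h₁ : ContinuousOn q₁ B) (h₂ : ContinuousOn q₂ B)
    (heq : ∀ x ∈ B, x ∉ C → q₁ x = q₂ x) : ∀ x ∈ B, q₁ x = q₂ x := by
  intro x hx
  by_contra hne
  have h3 : ContinuousOn (fun y => (q₁ y, q₂ y)) B := h₁.prodMk h₂
  have hO : IsOpen (B ∩ (fun y => (q₁ y, q₂ y)) ⁻¹' {p : F × F | p.1 ≠ p.2}) :=
    h3.isOpen_inter_preimage hB (isOpen_ne_fun continuous_fst continuous_snd)
  obtain ⟨y, hy, hyC⟩ := hd.exists_notMem hO (inter_subset_left.trans hBU) ⟨x, hx, hne⟩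
  exact hy.2 (heq y hy.1 hyC)

end

section

variable {E : Type*} [NormedAddCommGroup E] [NormedSpace ℂ E] [FiniteDimensional ℂ E]
variable {M : Type*} [TopologicalSpace M] [ChartedSpace E M] [IsManifold 𝓘(ℂ, E) ω M]
variable {C U U' V : Set M} {l l' h : M → ℂ}

omit [FiniteDimensional ℂ E] [IsManifold 𝓘(ℂ, E) ω M] in
theorem fderiv_chart_ne_zero {x : M} (hl : MDifferentiableAt 𝓘(ℂ, E) 𝓘(ℂ) l x)
    (h0 : mfderiv 𝓘(ℂ, E) 𝓘(ℂ) l x ≠ 0) :
    fderiv ℂ (l ∘ (chartAt E x).symm) (chartAt E x x) ≠ 0 := by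
  intro hcon
  apply h0
  have h2 : writtenInExtChartAt 𝓘(ℂ, E) 𝓘(ℂ) x l = l ∘ (chartAt E x).symm := by
    ext y
    simp only [mfld_simps]
    rfl
  have h3 : fderivWithin ℂ (writtenInExtChartAt 𝓘(ℂ, E) 𝓘(ℂ) x l) (range 𝓘(ℂ, E))
      (extChartAt 𝓘(ℂ, E) x x) = 0 := by
    rw [h2]
    simpa only [mfld_simps, fderivWithin_univ] using hcon
  exact hl.mfderiv.trans h3

/-- Local quotient at a point of the hypersurface. -/
theorem exists_quot_at (hd : IsDef E C U l) (hV : IsOpen V)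
    (hh : MDifferentiableOn 𝓘(ℂ, E) 𝓘(ℂ) h V) (h0 : ∀ x ∈ V, x ∈ U → x ∈ C → h x = 0)
    {p : M} (hpU : p ∈ U) (hpV : p ∈ V) (hpC : p ∈ C) :
    ∃ (B : Set M) (q : M → ℂ), IsOpen B ∧ p ∈ B ∧ B ⊆ U ∩ V ∧
      MDifferentiableOn 𝓘(ℂ, E) 𝓘(ℂ) q B ∧ ∀ x ∈ B, h x = l x * q x := by
  have : IsManifold 𝓘(ℂ, E) 1 M := IsManifold.of_le (n := ω) le_top
  set e := chartAt E p with hedef
  have he1 : e ∈ IsManifold.maximalAtlas 𝓘(ℂ, E) 1 M := IsManifold.chart_mem_maximalAtlas p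
  have hps : p ∈ e.source := mem_chart_source E p
  have hOo : IsOpen (U ∩ V) := hd.isOpen.inter hV
  have h1 := differentiableOn_chart he1 (hd.hol.mono (inter_subset_left (s := U) (t := V)))
  have h2 := differentiableOn_chart he1 (hh.mono (inter_subset_right (s := U) (t := V)))
  have hopen : IsOpen (e.target ∩ e.symm ⁻¹' (U ∩ V)) := e.isOpen_inter_preimage_symm hOo
  have hep : e p ∈ e.target ∩ e.symm ⁻¹' (U ∩ V) :=
    ⟨e.map_source hps, by rw [mem_preimage, e.left_inv hps]; exact ⟨hpU, hpV⟩⟩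
  obtain ⟨B, hBo, hpB, hBU, q, hq, hqe⟩ := exists_quot hopen hep h1 h2
    (fun z hz hz0 => h0 _ hz.2.2 hz.2.1 ((hd.zero_iff _ hz.2.1).1 hz0))
    (by
      simp only [Function.comp_apply, e.left_inv hps]
      exact (hd.zero_iff p hpU).2 hpC)
    (fderiv_chart_ne_zero ((hd.hol.mdifferentiableAt (hd.isOpen.mem_nhds hpU)))
      (hd.reg p hpU hpC))
  refine ⟨e.source ∩ e ⁻¹' B, q ∘ e, e.isOpen_inter_preimage hBo, ⟨hps, hpB⟩, ?_, ?_, ?_⟩
  · rintro x ⟨hxs, hxB⟩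
    have := (hBU hxB).2
    rwa [mem_preimage, e.left_inv hxs] at this
  · have h3 : MDifferentiableOn 𝓘(ℂ, E) 𝓘(ℂ, E) e (e.source ∩ e ⁻¹' B) :=
      ((contMDiffOn_of_mem_maximalAtlas he1).mdifferentiableOn (by norm_num)).mono
        inter_subset_left
    have h4 : MDifferentiableOn 𝓘(ℂ, E) 𝓘(ℂ) q B := mdifferentiableOn_iff_differentiableOn.2 hq
    exact h4.comp h3 (fun x hx => hx.2)
  · rintro x ⟨hxs, hxB⟩
    have := hqe _ hxB
    simpa only [Function.comp_apply, e.left_inv hxs] using this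

/-- **Division along a smooth hypersurface** on a complex manifold. -/
theorem exists_quot_mfd (hd : IsDef E C U l) (hV : IsOpen V)
    (hh : MDifferentiableOn 𝓘(ℂ, E) 𝓘(ℂ) h V) (h0 : ∀ x ∈ V, x ∈ U → x ∈ C → h x = 0) :
    ∃ q : M → ℂ, MDifferentiableOn 𝓘(ℂ, E) 𝓘(ℂ) q (U ∩ V) ∧ ∀ x ∈ U ∩ V, h x = l x * q x := by
  classical
  have key : ∀ p, p ∈ U → p ∈ V → p ∈ C → ∃ (B : Set M) (q : M → ℂ), IsOpen B ∧ p ∈ B ∧
      B ⊆ U ∩ V ∧ MDifferentiableOn 𝓘(ℂ, E) 𝓘(ℂ) q B ∧ ∀ x ∈ B, h x = l x * q x :=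
    fun p h1 h2 h3 => exists_quot_at hd hV hh h0 h1 h2 h3
  choose B q hBo hpB hBU hq hqe using key
  set Q : M → ℂ := fun x => if hx : x ∈ U ∧ x ∈ V ∧ x ∈ C then q x hx.1 hx.2.1 hx.2.2 x
    else h x / l x with hQ
  -- Q agrees with every local quotient
  have hQloc : ∀ (B' : Set M) (q' : M → ℂ), IsOpen B' → B' ⊆ U ∩ V → ContinuousOn q' B' →
      (∀ x ∈ B', h x = l x * q' x) → ∀ x ∈ B', Q x = q' x := by
    intro B' q' hB' hB'U hq' hq'e x hx
    by_cases hxC : x ∈ C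
    · have hx' : x ∈ U ∧ x ∈ V ∧ x ∈ C := ⟨(hB'U hx).1, (hB'U hx).2, hxC⟩
      have e1 : Q x = q x hx'.1 hx'.2.1 hx'.2.2 x := by simp only [hQ, dif_pos hx']
      rw [e1]
      refine hd.quot_unique (hB'.inter (hBo x hx'.1 hx'.2.1 hx'.2.2))
        (inter_subset_left.trans (hB'U.trans inter_subset_left))
        ((hq x hx'.1 hx'.2.1 hx'.2.2).continuousOn.mono inter_subset_right)
        (hq'.mono inter_subset_left) ?_ x ⟨hx, hpB x _ _ _⟩
      intro y hy hyC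
      have hy0 : l y ≠ 0 := fun h00 => hyC ((hd.zero_iff y (hB'U hy.1).1).1 h00)
      have e2 := hqe x hx'.1 hx'.2.1 hx'.2.2 y hy.2
      have e3 := hq'e y hy.1
      exact mul_left_cancel₀ hy0 (e2.symm.trans e3)
    · have hx' : ¬ (x ∈ U ∧ x ∈ V ∧ x ∈ C) := fun hh => hxC hh.2.2
      have e1 : Q x = h x / l x := by simp only [hQ, dif_neg hx']
      have hx0 : l x ≠ 0 := fun h00 => hxC ((hd.zero_iff x (hB'U hx).1).1 h00)
      rw [e1, hq'e x hx]
      field_simp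
  refine ⟨Q, ?_, ?_⟩
  · intro x hx
    apply MDifferentiableAt.mdifferentiableWithinAt
    by_cases hxC : x ∈ C
    · have h1 := hQloc _ _ (hBo x hx.1 hx.2 hxC) (hBU x _ _ _) (hq x _ _ _).continuousOn
        (hqe x hx.1 hx.2 hxC)
      have h2 : MDifferentiableAt 𝓘(ℂ, E) 𝓘(ℂ) (q x hx.1 hx.2 hxC) x :=
        (hq x hx.1 hx.2 hxC).mdifferentiableAt ((hBo x _ _ _).mem_nhds (hpB x _ _ _))
      refine h2.congr_of_eventuallyEq ?_
      filter_upwards [(hBo x hx.1 hx.2 hxC).mem_nhds (hpB x _ _ _)] with y hy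
      exact h1 y hy
    · have hx0 : l x ≠ 0 := fun h00 => hxC ((hd.zero_iff x hx.1).1 h00)
      have hUV : IsOpen (U ∩ V) := hd.isOpen.inter hV
      have hlU : ContinuousOn l (U ∩ V) := hd.hol.continuousOn.mono inter_subset_left
      have hO : IsOpen ((U ∩ V) ∩ l ⁻¹' {0}ᶜ) :=
        hlU.isOpen_inter_preimage hUV isOpen_compl_singleton
      have h2 : MDifferentiableAt 𝓘(ℂ, E) 𝓘(ℂ) (fun y => h y * (l y)⁻¹) x := by
        have h3 : MDifferentiableAt 𝓘(ℂ, E) 𝓘(ℂ) h x :=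
          hh.mdifferentiableAt (hV.mem_nhds hx.2)
        have h4 : MDifferentiableAt 𝓘(ℂ, E) 𝓘(ℂ) l x :=
          hd.hol.mdifferentiableAt (hd.isOpen.mem_nhds hx.1)
        have h5 : MDifferentiableAt 𝓘(ℂ) 𝓘(ℂ) (fun z : ℂ => z⁻¹) (l x) := by
          rw [mdifferentiableAt_iff_differentiableAt]
          exact differentiableAt_inv hx0
        exact h3.mul (h5.comp x h4)
      refine h2.congr_of_eventuallyEq ?_
      filter_upwards [hO.mem_nhds ⟨hx, hx0⟩] with y hy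
      have hyC : y ∉ C := fun hyC => hy.2 ((hd.zero_iff y hy.1.1).2 hyC)
      have hy' : ¬ (y ∈ U ∧ y ∈ V ∧ y ∈ C) := fun hh => hyC hh.2.2
      simp only [hQ, dif_neg hy', div_eq_mul_inv]
  · intro x hx
    by_cases hxC : x ∈ C
    · rw [h0 x hx.2 hx.1 hxC, (hd.zero_iff x hx.1).2 hxC, zero_mul]
    · have hx0 : l x ≠ 0 := fun h00 => hxC ((hd.zero_iff x hx.1).1 h00)
      have hx' : ¬ (x ∈ U ∧ x ∈ V ∧ x ∈ C) := fun hh => hxC hh.2.2
      simp only [hQ, dif_neg hx']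
      field_simp

/-- Two local equations differ by a unit. -/
theorem exists_unit (hd : IsDef E C U l) (hd' : IsDef E C U' l') :
    ∃ q : M → ℂ, MDifferentiableOn 𝓘(ℂ, E) 𝓘(ℂ) q (U ∩ U') ∧ (∀ x ∈ U ∩ U', q x ≠ 0) ∧
      ∀ x ∈ U ∩ U', l' x = l x * q x := by
  obtain ⟨q, hq, hqe⟩ := exists_quot_mfd hd hd'.isOpen hd'.hol
    (fun x hx _ hxC => (hd'.zero_iff x hx).2 hxC)
  obtain ⟨q', hq', hqe'⟩ := exists_quot_mfd hd' hd.isOpen hd.hol
    (fun x hx _ hxC => (hd.zero_iff x hx).2 hxC)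
  refine ⟨q, hq, fun x hx h0 => ?_, hqe⟩
  have hO : IsOpen (U ∩ U') := hd.isOpen.inter hd'.isOpen
  have h1 : ∀ y ∈ U ∩ U', q y * q' y = 1 := by
    refine hd.quot_unique hO inter_subset_left
      (hq.continuousOn.mul ?_) continuousOn_const ?_
    · rw [inter_comm]; exact hq'.continuousOn
    · intro y hy hyC
      have hy0 : l y ≠ 0 := fun h00 => hyC ((hd.zero_iff y hy.1).1 h00)
      have e1 := hqe y hy
      have e2 := hqe' y ⟨hy.2, hy.1⟩
      rw [e1] at e2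
      apply mul_left_cancel₀ hy0
      rw [mul_one, ← mul_assoc, ← e2]
  have := h1 x hx
  rw [h0, zero_mul] at this
  exact zero_ne_one this

end

end Vale.Agent.P267.H757
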