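import Mathlib
import Vale.Agent.P267.H757.NF3

/-! # Norm functions (helper757): existence of the norm function of a smooth closed hypersurface -/

open Set Filter Metric Topology
open scoped Manifold ContDiff

namespace Vale.Agent.P267.H757

variable {E : Type*} [NormedAddCommGroup E] [NormedSpace ℂ E] [FiniteDimensional ℂ E]
variable {M : Type*} [TopologicalSpace M] [ChartedSpace E M] [IsManifold 𝓘(ℂ, E) ω M]
variable {C U U' V : Set M} {l l' h : M → ℂ}

/-- `log ‖q‖²` is smooth where the holomorphic function `q` does not vanish. -/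
theorem smoothOn_log_normSq (hU : IsOpen U) (hg : MDifferentiableOn 𝓘(ℂ, E) 𝓘(ℂ) l U)
    (h0 : ∀ x ∈ U, l x ≠ 0) :
    ContMDiffOn 𝓘(ℝ, E) 𝓘(ℝ) ∞ (fun x => Real.log (‖l x‖ ^ 2)) U := by
  have h1 := smoothOn_normSq hU hg
  have h2 : ContMDiffOn 𝓘(ℝ) 𝓘(ℝ) ∞ (fun y : ℝ => Real.log y) (Ioi 0) := by
    rw [contMDiffOn_iff_contDiffOn]
    exact contDiffOn_id.log (fun x hx => ne_of_gt hx)
  exact h2.comp h1 (fun x hx => by
    have := norm_pos_iff.2 (h0 x hx)
    exact pow_pos this 2)

/-- **The norm function of a smooth closed hypersurface.** -/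
theorem exists_normFn [T2Space M] [SigmaCompactSpace M] (hC : IsCurve E C) {W : Set M}
    (hW : IsOpen W) (hCW : C ⊆ W) :
    ∃ N : M → ℝ, (∀ (U : Set M) (l : M → ℂ), IsDef E C U l → ∃ φ : M → ℝ, LocRep E N U l φ) ∧
      ∀ x, x ∉ W → N x = 1 := by
  classical
  have hFD : FiniteDimensional ℝ E := FiniteDimensional.complexToReal E
  have hMi : IsManifold 𝓘(ℂ, E) ∞ M := IsManifold.of_le (n := ω) le_top
  have hMR : IsManifold 𝓘(ℝ, E) ∞ M := isManifold_real ∞
  -- choose local equations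
  have key : ∀ p : M, ∃ (U : Set M) (l : M → ℂ), p ∈ U ∧ IsDef E C U l ∧ (p ∈ C → U ⊆ W) ∧
      (p ∉ C → ∀ x, l x = 1) := by
    intro p
    by_cases hp : p ∈ C
    · obtain ⟨U, l, hpU, hd⟩ := hC.exists_def p hp
      exact ⟨U ∩ W, l, ⟨hpU, hCW hp⟩, hd.mono (hd.isOpen.inter hW) inter_subset_left,
        fun _ => inter_subset_right, fun h => absurd hp h⟩
    · exact ⟨Cᶜ, fun _ => 1, hp, isDef_compl hC.isClosed, fun h => absurd h hp, fun _ _ => rfl⟩
  choose U l hpU hdef hUW hl1 using key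
  obtain ⟨ρ, hρ⟩ := SmoothPartitionOfUnity.exists_isSubordinate 𝓘(ℝ, E) isClosed_univ U
    (fun p => (hdef p).isOpen) (fun x _ => mem_iUnion.2 ⟨x, hpU x⟩)
  set N : M → ℝ := fun x => if x ∈ C then 0 else
    Real.exp (∑ᶠ p, ρ p x * Real.log (‖l p x‖ ^ 2)) with hN
  refine ⟨N, ?_, ?_⟩
  · intro V m hm
    -- units
    have hunit : ∀ p : M, ∃ q : M → ℂ, MDifferentiableOn 𝓘(ℂ, E) 𝓘(ℂ) q (V ∩ U p) ∧
        (∀ x ∈ V ∩ U p, q x ≠ 0) ∧ ∀ x ∈ V ∩ U p, l p x = m x * q x :=
      fun p => exists_unit hm (hdef p)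
    choose q hq hq0 hqe using hunit
    refine ⟨fun x => -∑ᶠ p, ρ p x • Real.log (‖q p x‖ ^ 2), hm.isOpen, hm.hol,
      fun B hB hBV hne => hm.exists_ne hB hBV hne, ?_, ?_⟩
    · -- smoothness
      intro x hx
      apply ContMDiffAt.contMDiffWithinAt
      apply ContMDiffAt.neg
      have h1 := ρ.contMDiffAt_finsum (n := (⊤ : ℕ∞)) (x₀ := x)
        (g := fun p x => Real.log (‖q p x‖ ^ 2)) (fun p hp => ?_)
      · exact h1
      · have hxU : x ∈ U p := hρ p hp
        have hO : IsOpen (V ∩ U p) := hm.isOpen.inter (hdef p).isOpen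
        exact (smoothOn_log_normSq hO (hq p) (hq0 p)).contMDiffAt (hO.mem_nhds ⟨hx, hxU⟩)
    · intro x hx
      by_cases hxC : x ∈ C
      · have h0 : m x = 0 := (hm.zero_iff x hx).2 hxC
        simp only [hN, if_pos hxC, h0]
        simp
      · have h0 : m x ≠ 0 := fun h => hxC ((hm.zero_iff x hx).1 h)
        simp only [hN, if_neg hxC, neg_neg]
        have hfin : ∀ p, ρ p x ≠ 0 → x ∈ U p := fun p hp => hρ p (subset_tsupport _ hp)
        have h2 : ∀ p, ρ p x * Real.log (‖l p x‖ ^ 2) =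
            ρ p x * Real.log (‖m x‖ ^ 2) + ρ p x • Real.log (‖q p x‖ ^ 2) := by
          intro p
          by_cases hp : ρ p x = 0
          · simp [hp]
          · have hxp := hfin p hp
            rw [hqe p x ⟨hx, hxp⟩, norm_mul, mul_pow, Real.log_mul, smul_eq_mul]
            · ring
            · exact pow_ne_zero 2 (norm_ne_zero_iff.2 h0)
            · exact pow_ne_zero 2 (norm_ne_zero_iff.2 (hq0 p x ⟨hx, hxp⟩))
        have hf0 : (Function.support fun p => ρ p x).Finite := ρ.locallyFinite.point_finite x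
        have hf1 : (Function.support fun p => ρ p x * Real.log (‖m x‖ ^ 2)).Finite := by
          refine hf0.subset (fun p hp => ?_)
          intro h3
          exact hp (by simp only [h3, zero_mul])
        have hf2 : (Function.support fun p => ρ p x • Real.log (‖q p x‖ ^ 2)).Finite := by
          refine hf0.subset (fun p hp => ?_)
          intro h3
          exact hp (by simp only [h3, zero_smul])
        rw [finsum_congr h2, finsum_add_distrib hf1 hf2, Real.exp_add]
        congr 1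
        have h3 : ∑ᶠ p, ρ p x * Real.log (‖m x‖ ^ 2) = Real.log (‖m x‖ ^ 2) := by
          have h4 := finsum_mul (fun p => ρ p x) (Real.log (‖m x‖ ^ 2))
          rw [← h4, ρ.sum_eq_one (mem_univ x), one_mul]
        rw [h3, Real.exp_log (by have := norm_pos_iff.2 h0; positivity)]
  · intro x hxW
    have hxC : x ∉ C := fun h => hxW (hCW h)
    simp only [hN, if_neg hxC]
    have h1 : ∀ p, ρ p x * Real.log (‖l p x‖ ^ 2) = 0 := by
      intro p
      by_cases hp : ρ p x = 0
      · simp [hp]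
      · have hxU : x ∈ U p := hρ p (subset_tsupport _ hp)
        have hpC : p ∉ C := fun h => hxW (hUW p h hxU)
        rw [hl1 p hpC x]
        simp
    rw [finsum_congr h1, finsum_zero, Real.exp_zero]

omit [FiniteDimensional ℂ E] [IsManifold 𝓘(ℂ, E) ω M] in
/-- The norm function of a hypersurface is a norm function, with zero set the hypersurface. -/
theorem isNormFn_of_curve (hC : IsCurve E C) {N : M → ℝ}
    (hN : ∀ (U : Set M) (l : M → ℂ), IsDef E C U l → ∃ φ : M → ℝ, LocRep E N U l φ) :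
    IsNormFn E N ∧ ∀ x, N x = 0 ↔ x ∈ C := by
  constructor
  · intro p
    by_cases hp : p ∈ C
    · obtain ⟨U, l, hpU, hd⟩ := hC.exists_def p hp
      obtain ⟨φ, hφ⟩ := hN U l hd
      exact ⟨U, l, φ, hpU, hφ⟩
    · obtain ⟨φ, hφ⟩ := hN _ _ (isDef_compl hC.isClosed)
      exact ⟨Cᶜ, _, φ, hp, hφ⟩
  · intro x
    by_cases hx : x ∈ C
    · obtain ⟨U, l, hxU, hd⟩ := hC.exists_def x hx
      obtain ⟨φ, hφ⟩ := hN U l hd
      exact (hφ.eq_zero_iff hxU).trans (hd.zero_iff x hxU)
    · obtain ⟨φ, hφ⟩ := hN _ _ (isDef_compl hC.isClosed)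
      rw [hφ.eq_zero_iff hx]
      simp [hx]

end Vale.Agent.P267.H757
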