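import Mathlib
import Vale.Agent.P267.H757.NF4

/-! # Norm functions (helper757): gluing, division, pull-back and push-forward -/

open Set Filter Metric Topology
open scoped Manifold ContDiff

namespace Vale.Agent.P267.H757

section glue

variable {E : Type*} [NormedAddCommGroup E] [NormedSpace ℂ E]
variable {M : Type*} [TopologicalSpace M] [ChartedSpace E M]

/-- Two continuous functions which agree on a dense set agree. -/
theorem eqOn_of_dense {F : Type*} [TopologicalSpace F] [T2Space F] {q₁ q₂ : M → F} {B D : Set M}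
    (hB : IsOpen B) (hD : Dense D) (h₁ : ContinuousOn q₁ B) (h₂ : ContinuousOn q₂ B)
    (heq : ∀ x ∈ B, x ∈ D → q₁ x = q₂ x) : ∀ x ∈ B, q₁ x = q₂ x := by
  intro x hx
  by_contra hne
  have h3 : ContinuousOn (fun y => (q₁ y, q₂ y)) B := h₁.prodMk h₂
  have hO : IsOpen (B ∩ (fun y => (q₁ y, q₂ y)) ⁻¹' {p : F × F | p.1 ≠ p.2}) :=
    h3.isOpen_inter_preimage hB (isOpen_ne_fun continuous_fst continuous_snd)
  obtain ⟨y, hy, hyD⟩ := (dense_iff_inter_open.1 hD) _ hO ⟨x, hx, hne⟩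
  exact hy.2 (heq y hy.1 hyD)

/-- Gluing of local representations which agree on a dense set. -/
theorem exists_glue {ι : Type*} (U : ι → Set M) (g : ι → M → ℂ) (φ : ι → M → ℝ)
    (hU : ∀ i, IsOpen (U i)) (hg : ∀ i, MDifferentiableOn 𝓘(ℂ, E) 𝓘(ℂ) (g i) (U i))
    (hnz : ∀ i, ∀ V : Set M, IsOpen V → V ⊆ U i → V.Nonempty → ∃ x ∈ V, g i x ≠ 0)
    (hφ : ∀ i, ContMDiffOn 𝓘(ℝ, E) 𝓘(ℝ) ∞ (φ i) (U i)) (hcov : ∀ x, ∃ i, x ∈ U i)
    {D : Set M} (hD : Dense D)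
    (heq : ∀ i j, ∀ x, x ∈ U i → x ∈ U j → x ∈ D →
      ‖g i x‖ ^ 2 * Real.exp (-φ i x) = ‖g j x‖ ^ 2 * Real.exp (-φ j x)) :
    ∃ N : M → ℝ, ∀ i, LocRep E N (U i) (g i) (φ i) := by
  choose i hi using hcov
  have hc : ∀ k, ContinuousOn (fun x => ‖g k x‖ ^ 2 * Real.exp (-φ k x)) (U k) := fun k =>
    (((hg k).continuousOn.norm).pow 2).mul ((hφ k).continuousOn.neg.rexp)
  refine ⟨fun x => ‖g (i x) x‖ ^ 2 * Real.exp (-φ (i x) x), fun j =>
    ⟨hU j, hg j, hnz j, hφ j, fun x hx => ?_⟩⟩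
  exact eqOn_of_dense (B := U (i x) ∩ U j) ((hU _).inter (hU j)) hD
    ((hc _).mono inter_subset_left) ((hc j).mono inter_subset_right)
    (fun y hy hyD => heq _ _ y hy.1 hy.2 hyD) x ⟨hi x, hx⟩

end glue

section comp

variable {E : Type*} [NormedAddCommGroup E] [NormedSpace ℂ E]
variable {M : Type*} [TopologicalSpace M] [ChartedSpace E M]
variable {E' : Type*} [NormedAddCommGroup E'] [NormedSpace ℂ E']
variable {M' : Type*} [TopologicalSpace M'] [ChartedSpace E' M']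
variable {N : M → ℝ} {U : Set M} {g : M → ℂ} {φ : M → ℝ}

/-- Pull-back of a local representation by an open holomorphic map. -/
theorem LocRep.comp (h : LocRep E N U g φ) {σ : M' → M} {V : Set M'} (hV : IsOpen V)
    (h1 : MDifferentiableOn 𝓘(ℂ, E') 𝓘(ℂ, E) σ V)
    (h2 : ContMDiffOn 𝓘(ℝ, E') 𝓘(ℝ, E) ∞ σ V)
    (h3 : ∀ B : Set M', IsOpen B → B ⊆ V → IsOpen (σ '' B)) :
    LocRep E' (fun x => N (σ x)) (V ∩ σ ⁻¹' U) (fun x => g (σ x)) (fun x => φ (σ x)) := by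
  have hO : IsOpen (V ∩ σ ⁻¹' U) := h2.continuousOn.isOpen_inter_preimage hV h.isOpen
  refine ⟨hO, h.hol.comp (h1.mono inter_subset_left) inter_subset_right, ?_,
    h.smooth.comp (h2.mono inter_subset_left) inter_subset_right, fun x hx => h.eq _ hx.2⟩
  intro B hB hBV hne
  obtain ⟨y, ⟨x, hx, rfl⟩, hy⟩ := h.nz (σ '' B) (h3 B hB (hBV.trans inter_subset_left))
    (image_subset_iff.2 (hBV.trans inter_subset_right)) (hne.image σ)
  exact ⟨x, hx, hy⟩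

theorem IsNormFn.comp (h : IsNormFn E N) {π : M' → M}
    (h1 : MDifferentiable 𝓘(ℂ, E') 𝓘(ℂ, E) π) (h2 : ContMDiff 𝓘(ℝ, E') 𝓘(ℝ, E) ∞ π)
    (h3 : IsOpenMap π) : IsNormFn E' (fun x => N (π x)) := by
  intro p
  obtain ⟨U, g, φ, hpU, hr⟩ := h (π p)
  exact ⟨univ ∩ π ⁻¹' U, _, _, ⟨mem_univ p, hpU⟩, hr.comp isOpen_univ h1.mdifferentiableOn h2.contMDiffOn
    (fun B hB _ => h3 B hB)⟩

end comp

section loc

variable {E : Type*} [NormedAddCommGroup E] [NormedSpace ℂ E]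
variable {M : Type*} [TopologicalSpace M] [ChartedSpace E M]
variable {M' : Type*} [TopologicalSpace M'] [ChartedSpace E M']

/-- Norm functions pull back under local biholomorphisms. -/
theorem IsNormFn.comp_local {N : M → ℝ} (h : IsNormFn E N) {π : M' → M}
    (hπ : IsLocalDiffeomorph 𝓘(ℂ, E) 𝓘(ℂ, E) ω π) : IsNormFn E (fun x => N (π x)) :=
  h.comp (hπ.mdifferentiable (by simp)) ((contMDiff_real hπ.contMDiff).of_le le_top)
    hπ.isOpenMap

/-- A continuous local right inverse of a local biholomorphism is a local biholomorphism. -/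
theorem section_props {π : M' → M} (hπ : IsLocalDiffeomorph 𝓘(ℂ, E) 𝓘(ℂ, E) ω π) {σ : M → M'}
    {V : Set M} (hV : IsOpen V) (hσ : ContinuousOn σ V) (hπσ : ∀ x ∈ V, π (σ x) = x) :
    ContMDiffOn 𝓘(ℂ, E) 𝓘(ℂ, E) ω σ V ∧ ∀ B : Set M, IsOpen B → B ⊆ V → IsOpen (σ '' B) := by
  have key : ∀ x ∈ V, ∃ Φ : PartialDiffeomorph 𝓘(ℂ, E) 𝓘(ℂ, E) M' M ω, σ x ∈ Φ.source ∧
      EqOn π Φ Φ.source := fun x _ => hπ (σ x)
  constructor
  · intro x hx
    obtain ⟨Φ, hxΦ, hΦ⟩ := key x hx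
    have hO : IsOpen (V ∩ σ ⁻¹' Φ.source) := hσ.isOpen_inter_preimage hV Φ.open_source
    have hx' : x ∈ V ∩ σ ⁻¹' Φ.source := ⟨hx, hxΦ⟩
    have e1 : ∀ y ∈ V ∩ σ ⁻¹' Φ.source, σ y = Φ.symm y := by
      intro y hy
      have h1 : Φ (σ y) = y := by rw [← hΦ hy.2]; exact hπσ y hy.1
      have h2 := Φ.toOpenPartialHomeomorph.left_inv hy.2
      have h3 : Φ.symm (Φ (σ y)) = σ y := h2
      rw [h1] at h3
      exact h3.symm
    have hxt : x ∈ Φ.target := by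
      have h1 : Φ (σ x) = x := by rw [← hΦ hxΦ]; exact hπσ x hx
      rw [← h1]
      exact Φ.toOpenPartialHomeomorph.map_source hxΦ
    have h4 : ContMDiffAt 𝓘(ℂ, E) 𝓘(ℂ, E) ω Φ.symm x :=
      Φ.symm.contMDiffOn.contMDiffAt (Φ.open_target.mem_nhds hxt)
    refine (h4.congr_of_eventuallyEq ?_).contMDiffWithinAt
    filter_upwards [hO.mem_nhds hx'] with y hy
    exact e1 y hy
  · intro B hB hBV
    rw [isOpen_iff_mem_nhds]
    rintro _ ⟨x, hx, rfl⟩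
    obtain ⟨Φ, hxΦ, hΦ⟩ := key x (hBV hx)
    have hO : IsOpen (B ∩ σ ⁻¹' Φ.source) :=
      (hσ.mono hBV).isOpen_inter_preimage hB Φ.open_source
    have h5 : IsOpen (Φ.source ∩ Φ ⁻¹' (B ∩ σ ⁻¹' Φ.source)) :=
      Φ.toOpenPartialHomeomorph.isOpen_inter_preimage hO
    have hmem : σ x ∈ Φ.source ∩ Φ ⁻¹' (B ∩ σ ⁻¹' Φ.source) := by
      refine ⟨hxΦ, ?_⟩
      have h1 : Φ (σ x) = x := by rw [← hΦ hxΦ]; exact hπσ x (hBV hx)
      rw [mem_preimage, h1]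
      exact ⟨hx, hxΦ⟩
    refine mem_of_superset (h5.mem_nhds hmem) ?_
    rintro y ⟨hys, hyB, hyσ⟩
    refine ⟨Φ y, hyB, ?_⟩
    have h1 : Φ (σ (Φ y)) = Φ y := by
      rw [← hΦ hyσ]; exact hπσ _ (hBV hyB)
    exact Φ.toOpenPartialHomeomorph.injOn hyσ hys h1

/-- Product of a function over the fibres of a map. -/
noncomputable def pushN (π : M' → M) (N : M' → ℝ) (x : M) : ℝ := ∏ᶠ y ∈ π ⁻¹' {x}, N y

/-- Local sections of a finite covering by a local biholomorphism. -/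
theorem exists_sections {π : M' → M} (hπ : IsLocalDiffeomorph 𝓘(ℂ, E) 𝓘(ℂ, E) ω π)
    (hc : IsCoveringMap π) (hf : ∀ x, (π ⁻¹' {x}).Finite) (x : M) :
    ∃ (V : Set M) (k : ℕ) (σ : Fin k → M → M'), IsOpen V ∧ x ∈ V ∧
      (∀ i, ∀ y ∈ V, π (σ i y) = y) ∧ (∀ y ∈ V, Function.Injective (fun i => σ i y)) ∧
      (∀ y ∈ V, π ⁻¹' {y} = range (fun i => σ i y)) ∧
      (∀ i, ContMDiffOn 𝓘(ℂ, E) 𝓘(ℂ, E) ω (σ i) V) ∧
      ∀ i, ∀ B : Set M, IsOpen B → B ⊆ V → IsOpen (σ i '' B) := by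
  classical
  have hfx : Finite (π ⁻¹' {x}) := hf x
  obtain ⟨hdisc, U, hxU, hUo, hUo', H, hH⟩ := hc x
  obtain ⟨k, ⟨ε⟩⟩ := Finite.exists_equiv_fin (π ⁻¹' {x})
  set σ : Fin k → M → M' := fun i y => if hy : y ∈ U then (H.symm (⟨y, hy⟩, ε.symm i)).1
    else (ε.symm i).1 with hσ
  have hσU : ∀ i y (hy : y ∈ U), σ i y = (H.symm (⟨y, hy⟩, ε.symm i)).1 := by
    intro i y hy
    simp only [hσ, dif_pos hy]
  have hπσ : ∀ i, ∀ y ∈ U, π (σ i y) = y := by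
    intro i y hy
    rw [hσU i y hy, ← hH, H.apply_symm_apply]
  have hcont : ∀ i, ContinuousOn (σ i) U := by
    intro i
    rw [continuousOn_iff_continuous_domRestrict]
    have h1 : U.domRestrict (σ i) = fun y : U => (H.symm (y, ε.symm i)).1 := by
      ext y
      exact hσU i y y.2
    rw [h1]
    have h2 : Continuous fun y : U => H.symm (y, ε.symm i) :=
      H.symm.continuous.comp (by fun_prop)
    exact continuous_subtype_val.comp h2
  refine ⟨U, k, σ, hUo, hxU, hπσ, ?_, ?_, fun i => (section_props hπ hUo (hcont i) (hπσ i)).1,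
    fun i => (section_props hπ hUo (hcont i) (hπσ i)).2⟩
  · intro y hy i j hij
    simp only [hσU _ y hy] at hij
    have h1 := H.symm.injective (Subtype.ext hij)
    simpa using h1
  · intro y hy
    ext z
    constructor
    · intro hz
      have hz' : π z = y := hz
      have hzU : z ∈ π ⁻¹' U := by rw [mem_preimage, hz']; exact hy
      refine ⟨ε (H ⟨z, hzU⟩).2, ?_⟩
      show σ _ y = z
      rw [hσU _ y hy, Equiv.symm_apply_apply]
      have h2 : (⟨y, hy⟩ : U) = (H ⟨z, hzU⟩).1 := by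
        apply Subtype.ext
        rw [hH]; exact hz'.symm
      rw [h2]
      have h3 : H.symm ((H ⟨z, hzU⟩).1, (H ⟨z, hzU⟩).2) = ⟨z, hzU⟩ := H.symm_apply_apply _
      rw [h3]
    · rintro ⟨i, rfl⟩
      exact hπσ i y hy

omit [TopologicalSpace M] [TopologicalSpace M'] in
/-- Local formula for the push-forward. -/
theorem pushN_eq {π : M' → M} (N : M' → ℝ) {y : M} {k : ℕ} {σ : Fin k → M → M'}
    (hinj : Function.Injective (fun i => σ i y)) (hr : π ⁻¹' {y} = range (fun i => σ i y)) :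
    pushN π N y = ∏ i, N (σ i y) := by
  rw [pushN, hr, finprod_mem_range hinj, finprod_eq_prod_of_fintype]

/-- **Push-forward of a norm function along a finite covering.** -/
theorem IsNormFn.push {π : M' → M} (hπ : IsLocalDiffeomorph 𝓘(ℂ, E) 𝓘(ℂ, E) ω π)
    (hc : IsCoveringMap π) (hf : ∀ x, (π ⁻¹' {x}).Finite) {N : M' → ℝ} (hN : IsNormFn E N) :
    IsNormFn E (pushN π N) := by
  intro x
  obtain ⟨V, k, σ, hV, hxV, hπσ, hinj, hr, hsm, hop⟩ := exists_sections hπ hc hf x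
  have h1 : ∀ i, IsNormFnOn E (fun y => N (σ i y)) V := by
    intro i p hp
    obtain ⟨U, g, φ, hpU, hrep⟩ := hN (σ i p)
    exact ⟨V ∩ σ i ⁻¹' U, _, _, ⟨hp, hpU⟩, hrep.comp hV ((hsm i).mdifferentiableOn (by simp))
      ((contMDiffOn_real (hsm i)).of_le le_top) (hop i)⟩
  obtain ⟨U, g, φ, hxU, hrep⟩ := isNormFnOn_prod Finset.univ (fun i _ => h1 i) x hxV
  refine ⟨U ∩ V, g, φ, ⟨hxU, hxV⟩, (hrep.mono (hrep.isOpen.inter hV) inter_subset_left).congr ?_⟩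
  intro y hy
  exact pushN_eq N (hinj y hy.2) (hr y hy.2)

end loc

section div

variable {E : Type*} [NormedAddCommGroup E] [NormedSpace ℂ E]
variable {M : Type*} [TopologicalSpace M] [ChartedSpace E M]
variable {C : Set M} {N NC : M → ℝ}

/-- **Division of a norm function by a power of the norm function of a hypersurface.** -/
theorem IsNormFn.exists_div (hN : IsNormFn E N) (hC : IsCurve E C)
    (hNC : ∀ (U : Set M) (l : M → ℂ), IsDef E C U l → ∃ φ : M → ℝ, LocRep E NC U l φ) (m : ℕ)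
    (hloc : ∀ p ∈ C, ∃ (U : Set M) (l g' : M → ℂ) (φ : M → ℝ), p ∈ U ∧ IsDef E C U l ∧
      MDifferentiableOn 𝓘(ℂ, E) 𝓘(ℂ) g' U ∧ LocRep E N U (fun x => l x ^ m * g' x) φ) :
    ∃ N' : M → ℝ, IsNormFn E N' ∧ (∀ x, N x = NC x ^ m * N' x) ∧
      ∀ (U : Set M) (l g' : M → ℂ) (φ : M → ℝ), IsDef E C U l →
        MDifferentiableOn 𝓘(ℂ, E) 𝓘(ℂ) g' U → LocRep E N U (fun x => l x ^ m * g' x) φ →
        ∃ φ' : M → ℝ, LocRep E N' U g' φ' := by
  classical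
  -- index set: all admissible data
  let ι := {d : Set M × (M → ℂ) × (M → ℂ) × (M → ℝ) × (M → ℝ) //
    IsDef E C d.1 d.2.1 ∧ MDifferentiableOn 𝓘(ℂ, E) 𝓘(ℂ) d.2.2.1 d.1 ∧
    LocRep E N d.1 (fun x => d.2.1 x ^ m * d.2.2.1 x) d.2.2.2.1 ∧ LocRep E NC d.1 d.2.1 d.2.2.2.2}
  have hcov : ∀ x, ∃ i : ι, x ∈ i.1.1 := by
    intro x
    by_cases hx : x ∈ C
    · obtain ⟨U, l, g', φ, hxU, hd, hg', hrep⟩ := hloc x hx
      obtain ⟨ψ, hψ⟩ := hNC U l hd
      exact ⟨⟨(U, l, g', φ, ψ), hd, hg', hrep, hψ⟩, hxU⟩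
    · obtain ⟨U, g, φ, hxU, hrep⟩ := hN x
      have hd : IsDef E C (U ∩ Cᶜ) (fun _ => (1 : ℂ)) :=
        (isDef_compl hC.isClosed).mono (hrep.isOpen.inter hC.isClosed.isOpen_compl)
          inter_subset_right
      obtain ⟨ψ, hψ⟩ := hNC _ _ hd
      refine ⟨⟨(U ∩ Cᶜ, fun _ => 1, g, φ, ψ), hd, hrep.hol.mono inter_subset_left, ?_, hψ⟩,
        hxU, hx⟩
      have h1 := hrep.mono (hrep.isOpen.inter hC.isClosed.isOpen_compl)
        (inter_subset_left (s := U) (t := Cᶜ))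
      simpa using h1
  have hnz : ∀ i : ι, ∀ V : Set M, IsOpen V → V ⊆ i.1.1 → V.Nonempty →
      ∃ x ∈ V, i.1.2.2.1 x ≠ 0 := by
    rintro ⟨⟨U, l, g', φ, ψ⟩, hd, hg', hrep, hψ⟩ V hV hVU hne
    obtain ⟨x, hx, hx0⟩ := hrep.nz V hV hVU hne
    exact ⟨x, hx, right_ne_zero_of_mul hx0⟩
  -- value off C
  have hval : ∀ i : ι, ∀ x ∈ i.1.1, N x = NC x ^ m *
      (‖i.1.2.2.1 x‖ ^ 2 * Real.exp (-(i.1.2.2.2.1 x - m * i.1.2.2.2.2 x))) := by
    rintro ⟨⟨U, l, g', φ, ψ⟩, hd, hg', hrep, hψ⟩ x hx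
    have e1 := hrep.eq x hx
    have e2 := hψ.eq x hx
    simp only at e1 e2 ⊢
    rw [e1, e2, norm_mul, norm_pow, mul_pow (‖l x‖ ^ 2), ← Real.exp_nat_mul,
      show -(φ x - (m : ℝ) * ψ x) = -φ x + (m : ℝ) * ψ x by ring, Real.exp_add,
      show (m : ℝ) * -ψ x = -((m : ℝ) * ψ x) by ring, Real.exp_neg ((m : ℝ) * ψ x)]
    have := (Real.exp_pos ((m : ℝ) * ψ x)).ne'
    field_simp
    ring
  obtain ⟨N', hN'⟩ := exists_glue (fun i : ι => i.1.1) (fun i : ι => i.1.2.2.1)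
    (fun i : ι => fun x => i.1.2.2.2.1 x - m * i.1.2.2.2.2 x)
    (fun i => i.2.1.isOpen) (fun i => i.2.2.1) hnz
    (fun i => by
      have h1 : ContMDiffOn 𝓘(ℝ, E) 𝓘(ℝ) ∞ (fun x => (m : ℝ) * i.1.2.2.2.2 x) i.1.1 :=
        contMDiffOn_const.mul i.2.2.2.2.smooth
      exact i.2.2.2.1.smooth.sub h1) hcov hC.dense_compl
    (fun i j x hxi hxj hxC => by
      have e1 := hval i x hxi
      have e2 := hval j x hxj
      have h0 : NC x ^ m ≠ 0 := by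
        apply pow_ne_zero
        rw [i.2.2.2.2.ne_zero_iff hxi]
        exact fun h => hxC ((i.2.1.zero_iff x hxi).1 h)
      exact mul_left_cancel₀ h0 (e1.symm.trans e2))
  refine ⟨N', fun x => ?_, fun x => ?_, fun U l g' φ hd hg' hrep => ?_⟩
  · obtain ⟨i, hi⟩ := hcov x
    exact ⟨_, _, _, hi, hN' i⟩
  · obtain ⟨i, hi⟩ := hcov x
    rw [hval i x hi, (hN' i).eq x hi]
  · obtain ⟨ψ, hψ⟩ := hNC U l hd
    exact ⟨_, hN' ⟨(U, l, g', φ, ψ), hd, hg', hrep, hψ⟩⟩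

end div

end Vale.Agent.P267.H757
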