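import Mathlib
import Vale.Agent.P267.H757.NF5

/-! # Norm functions (helper757): maximal division by the norm function of a hypersurface -/

open Set Filter Metric Topology Asymptotics
open scoped Manifold ContDiff

namespace Vale.Agent.P267.H757

/-- A flat analytic function of one variable vanishes. -/
theorem eventually_zero_of_flat_one {h : ℂ → ℂ} (hh : AnalyticAt ℂ h 0)
    (hflat : ∀ m : ℕ, h =O[𝓝 0] fun t => t ^ m) : ∀ᶠ t in 𝓝 (0 : ℂ), h t = 0 := by
  by_contra hcon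
  obtain ⟨n, g, hg, hg0, hev⟩ := hh.exists_eventuallyEq_pow_smul_nonzero_iff.2 hcon
  obtain ⟨c, hc⟩ := (hflat (n + 1)).bound
  have h1 : ∀ᶠ t in 𝓝[≠] (0 : ℂ), ‖g t‖ ≤ c * ‖t‖ := by
    filter_upwards [hev.filter_mono nhdsWithin_le_nhds, hc.filter_mono nhdsWithin_le_nhds,
      self_mem_nhdsWithin] with t h2 h3 h4
    have h5 : t ≠ 0 := h4
    rw [h2, sub_zero, smul_eq_mul, norm_mul, norm_pow, norm_pow, pow_succ] at h3
    have h6 : 0 < ‖t‖ ^ n := by
      have := norm_pos_iff.2 h5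
      positivity
    have h7 : ‖t‖ ^ n * ‖g t‖ ≤ ‖t‖ ^ n * (c * ‖t‖) := by
      calc ‖t‖ ^ n * ‖g t‖ ≤ c * (‖t‖ ^ n * ‖t‖) := h3
        _ = ‖t‖ ^ n * (c * ‖t‖) := by ring
    exact le_of_mul_le_mul_left h7 h6
  have h2 : Tendsto (fun t : ℂ => ‖g t‖) (𝓝[≠] 0) (𝓝 ‖g 0‖) :=
    (hg.continuousAt.norm).tendsto.mono_left nhdsWithin_le_nhds
  have h3 : Tendsto (fun t : ℂ => c * ‖t‖) (𝓝[≠] 0) (𝓝 0) := by
    have : ContinuousAt (fun t : ℂ => c * ‖t‖) 0 := by fun_prop
    have h4 := this.tendsto.mono_left (nhdsWithin_le_nhds (s := {0}ᶜ))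
    simpa using h4
  have h4 : ‖g 0‖ ≤ 0 := le_of_tendsto_of_tendsto h2 h3 h1
  exact hg0 (norm_le_zero_iff.1 h4)

/-- A flat analytic function of several variables vanishes. -/
theorem eventually_zero_of_flat {E : Type*} [NormedAddCommGroup E] [NormedSpace ℂ E]
    {G : E → ℂ} {z₀ : E} (hG : AnalyticAt ℂ G z₀)
    (hflat : ∀ m : ℕ, G =O[𝓝 z₀] fun z => ‖z - z₀‖ ^ m) : ∀ᶠ z in 𝓝 z₀, G z = 0 := by
  obtain ⟨r, hr, hball⟩ := Metric.eventually_nhds_iff_ball.1 hG.eventually_analyticAt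
  filter_upwards [ball_mem_nhds z₀ hr] with z hz
  by_cases hzz : z = z₀
  · subst hzz
    have h1 := (hflat 1).bound
    obtain ⟨c, hc⟩ := h1
    have h2 := hc.self_of_nhds
    simp at h2
    exact h2
  set w := z - z₀ with hw
  have hw0 : 0 < ‖w‖ := norm_pos_iff.2 (sub_ne_zero.2 hzz)
  set h : ℂ → ℂ := fun t => G (z₀ + t • w) with hh
  have haff : ∀ t : ℂ, AnalyticAt ℂ (fun t : ℂ => z₀ + t • w) t := fun t => by fun_prop
  have hmem : ∀ t ∈ ball (0 : ℂ) (r / ‖w‖), z₀ + t • w ∈ ball z₀ r := by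
    intro t ht
    rw [mem_ball_zero_iff] at ht
    rw [mem_ball, dist_eq_norm, add_sub_cancel_left, norm_smul]
    exact (lt_div_iff₀ hw0).1 ht
  have hhan : AnalyticOnNhd ℂ h (ball 0 (r / ‖w‖)) := fun t ht =>
    AnalyticAt.fun_comp (g := G) (f := fun t : ℂ => z₀ + t • w) (hball _ (hmem t ht)) (haff t)
  have h0mem : (0 : ℂ) ∈ ball (0 : ℂ) (r / ‖w‖) := mem_ball_self (by positivity)
  have h1mem : (1 : ℂ) ∈ ball (0 : ℂ) (r / ‖w‖) := by
    rw [mem_ball_zero_iff, norm_one, lt_div_iff₀ hw0, one_mul]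
    rwa [mem_ball, dist_eq_norm] at hz
  have hev : ∀ᶠ t in 𝓝 (0 : ℂ), h t = 0 := by
    apply eventually_zero_of_flat_one (hhan 0 h0mem)
    intro m
    have hcont : Tendsto (fun t : ℂ => z₀ + t • w) (𝓝 0) (𝓝 z₀) := by
      have : ContinuousAt (fun t : ℂ => z₀ + t • w) 0 := by fun_prop
      simpa using this.tendsto
    have h2 := (hflat m).comp_tendsto hcont
    refine h2.trans ?_
    refine IsBigO.of_bound (‖w‖ ^ m) (Eventually.of_forall fun t => ?_)
    simp only [Function.comp_apply, add_sub_cancel_left, norm_smul, norm_pow, mul_pow]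
    rw [mul_comm (‖t‖ ^ m), Real.norm_of_nonneg (by positivity)]
  have h3 := hhan.eqOn_zero_of_preconnected_of_eventuallyEq_zero
    (convex_ball (0 : ℂ) _).isPreconnected h0mem hev h1mem
  simpa [hh, hw] using h3

section

variable {E : Type*} [NormedAddCommGroup E] [NormedSpace ℂ E]
variable {M : Type*} [TopologicalSpace M] [ChartedSpace E M]
variable {C U : Set M} {N NC : M → ℝ} {g g' : M → ℂ} {φ : M → ℝ}

theorem LocRep.congr_fun (h : LocRep E N U g φ) (hg : ∀ x ∈ U, g' x = g x) :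
    LocRep E N U g' φ := by
  refine ⟨h.isOpen, h.hol.congr hg, fun V hV hVU hne => ?_, h.smooth, fun x hx => ?_⟩
  · obtain ⟨x, hx, hx0⟩ := h.nz V hV hVU hne
    exact ⟨x, hx, by rw [hg x (hVU hx)]; exact hx0⟩
  · rw [h.eq x hx, hg x hx]

end

section

variable {E : Type*} [NormedAddCommGroup E] [NormedSpace ℂ E] [FiniteDimensional ℂ E]
variable {M : Type*} [TopologicalSpace M] [ChartedSpace E M] [IsManifold 𝓘(ℂ, E) ω M]
variable {C U : Set M} {N NC : M → ℝ} {g g' : M → ℂ} {φ : M → ℝ}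

/-- A norm function which vanishes on a hypersurface is divisible by its norm function. -/
theorem IsNormFn.exists_div_one (hN : IsNormFn E N) (hC : IsCurve E C)
    (hNC : ∀ (U : Set M) (l : M → ℂ), IsDef E C U l → ∃ φ : M → ℝ, LocRep E NC U l φ)
    (h0 : ∀ x ∈ C, N x = 0) :
    ∃ N' : M → ℝ, IsNormFn E N' ∧ ∀ x, N x = NC x * N' x := by
  obtain ⟨N', h1, h2, -⟩ := hN.exists_div hC hNC 1 (fun p hp => by
    obtain ⟨U, g, φ, hpU, hrep⟩ := hN p
    obtain ⟨U₁, l, hpU₁, hd⟩ := hC.exists_def p hp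
    have hV : IsOpen (U ∩ U₁) := hrep.isOpen.inter hd.isOpen
    have hd' := hd.mono hV inter_subset_right
    obtain ⟨q, hq, hqe⟩ := exists_quot_mfd hd' hV (hrep.hol.mono inter_subset_left)
      (fun x hx _ hxC => (hrep.eq_zero_iff hx.1).1 (h0 x hxC))
    rw [inter_self] at hq hqe
    refine ⟨U ∩ U₁, l, q, φ, ⟨hpU, hpU₁⟩, hd', hq, ?_⟩
    refine (hrep.mono hV inter_subset_left).congr_fun (fun x hx => ?_)
    rw [pow_one, hqe x hx])
  exact ⟨N', h1, fun x => by rw [h2 x, pow_one]⟩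

/-- **Maximal division**: `N = N_C ^ m * N'` with `N'` not identically zero on `C`. -/
theorem IsNormFn.exists_max_div (hN : IsNormFn E N) (hC : IsCurve E C) (hne : C.Nonempty)
    (hNC : ∀ (U : Set M) (l : M → ℂ), IsDef E C U l → ∃ φ : M → ℝ, LocRep E NC U l φ) :
    ∃ (m : ℕ) (N' : M → ℝ), IsNormFn E N' ∧ (∀ x, N x = NC x ^ m * N' x) ∧
      ∃ x ∈ C, N' x ≠ 0 := by
  by_contra hcon
  push Not at hcon
  have hall : ∀ m : ℕ, ∃ N' : M → ℝ, IsNormFn E N' ∧ ∀ x, N x = NC x ^ m * N' x := by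
    intro m
    induction m with
    | zero => exact ⟨N, hN, fun x => by simp⟩
    | succ m ih =>
      obtain ⟨N', h1, h2⟩ := ih
      obtain ⟨N'', h3, h4⟩ := h1.exists_div_one hC hNC (hcon m N' h1 h2)
      exact ⟨N'', h3, fun x => by rw [h2 x, h4 x, pow_succ, mul_assoc]⟩
  obtain ⟨p, hp⟩ := hne
  obtain ⟨U, g, φ, hpU, hrep⟩ := hN p
  obtain ⟨U₁, l, hpU₁, hd⟩ := hC.exists_def p hp
  obtain ⟨ψ, hψ⟩ := hNC U₁ l hd
  have hM1 : IsManifold 𝓘(ℂ, E) 1 M := IsManifold.of_le (n := ω) le_top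
  set e := chartAt E p with hedef
  have he1 : e ∈ IsManifold.maximalAtlas 𝓘(ℂ, E) 1 M := IsManifold.chart_mem_maximalAtlas p
  have hps : p ∈ e.source := mem_chart_source E p
  have hlp : l p = 0 := (hd.zero_iff p hpU₁).2 hp
  -- flatness of g ∘ e.symm
  have hG : DifferentiableOn ℂ (g ∘ e.symm) (e.target ∩ e.symm ⁻¹' U) :=
    differentiableOn_chart he1 hrep.hol
  have hGo : IsOpen (e.target ∩ e.symm ⁻¹' U) := e.isOpen_inter_preimage_symm hrep.isOpen
  have hepG : e p ∈ e.target ∩ e.symm ⁻¹' U :=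
    ⟨e.map_source hps, by rw [mem_preimage, e.left_inv hps]; exact hpU⟩
  have hGan : AnalyticAt ℂ (g ∘ e.symm) (e p) :=
    Vale.Agent.P268.analyticAt_of_differentiableOn hGo hG hepG
  have hL : DifferentiableOn ℂ (l ∘ e.symm) (e.target ∩ e.symm ⁻¹' U₁) :=
    differentiableOn_chart he1 hd.hol
  have hLo : IsOpen (e.target ∩ e.symm ⁻¹' U₁) := e.isOpen_inter_preimage_symm hd.isOpen
  have hepL : e p ∈ e.target ∩ e.symm ⁻¹' U₁ :=
    ⟨e.map_source hps, by rw [mem_preimage, e.left_inv hps]; exact hpU₁⟩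
  have hLO : (l ∘ e.symm) =O[𝓝 (e p)] fun z => ‖z - e p‖ := by
    have h1 := (hL.differentiableAt (hLo.mem_nhds hepL)).isBigO_sub
    have h2 : (l ∘ e.symm) (e p) = 0 := by
      simp only [Function.comp_apply, e.left_inv hps, hlp]
    simp only [h2, sub_zero] at h1
    exact h1.norm_right
  have hsymm : Tendsto e.symm (𝓝 (e p)) (𝓝 p) := by
    have := e.continuousAt_symm (e.map_source hps)
    rw [ContinuousAt, e.left_inv hps] at this
    exact this
  have hflat : ∀ m : ℕ, (g ∘ e.symm) =O[𝓝 (e p)] fun z => ‖z - e p‖ ^ m := by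
    intro m
    obtain ⟨N', h1, h2⟩ := hall m
    -- square form
    have h3 : (fun x => ‖g x‖ ^ 2) =O[𝓝 p] fun x => (‖l x‖ ^ m) ^ 2 := by
      have hc : ContinuousAt (fun x => Real.exp (-(m * ψ x)) * N' x * Real.exp (φ x)) p := by
        have c1 : ContinuousAt ψ p :=
          hψ.smooth.continuousOn.continuousAt (hψ.isOpen.mem_nhds hpU₁)
        have c2 : ContinuousAt φ p :=
          hrep.smooth.continuousOn.continuousAt (hrep.isOpen.mem_nhds hpU)
        have c3 : ContinuousAt N' p := h1.continuous.continuousAt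
        exact (((continuousAt_const.mul c1).neg.rexp).mul c3).mul c2.rexp
      have hb := hc.tendsto.isBigO_one ℝ
      have h4 : (fun x => ‖g x‖ ^ 2) =ᶠ[𝓝 p] fun x => (‖l x‖ ^ m) ^ 2 *
          (Real.exp (-(m * ψ x)) * N' x * Real.exp (φ x)) := by
        filter_upwards [hrep.isOpen.mem_nhds hpU, hψ.isOpen.mem_nhds hpU₁] with x hx hx₁
        have e1 := hrep.eq x hx
        have e2 := hψ.eq x hx₁
        have e3 := h2 x
        rw [e1, e2, mul_pow, ← Real.exp_nat_mul] at e3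
        have e4 : ‖g x‖ ^ 2 = (‖g x‖ ^ 2 * Real.exp (-φ x)) * Real.exp (φ x) := by
          rw [mul_assoc, ← Real.exp_add]; simp
        rw [e4, e3]
        rw [show (m : ℝ) * -ψ x = -(m * ψ x) by ring]
        ring
      refine h4.trans_isBigO ?_
      have h5 := (isBigO_refl (fun x => (‖l x‖ ^ m) ^ 2) (𝓝 p)).mul hb
      simpa using h5
    have h4 : g =O[𝓝 p] fun x => ‖l x‖ ^ m := by
      obtain ⟨c, hc⟩ := h3.bound
      refine IsBigO.of_bound (Real.sqrt c) ?_
      filter_upwards [hc] with x hx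
      rw [norm_pow, norm_norm, norm_pow, norm_pow, norm_norm] at hx
      rw [norm_pow, norm_norm]
      by_cases hc0 : 0 ≤ c
      · have h5 : ‖g x‖ ^ 2 ≤ (Real.sqrt c * ‖l x‖ ^ m) ^ 2 := by
          rw [mul_pow, Real.sq_sqrt hc0]; exact hx
        exact le_of_sq_le_sq h5 (by positivity)
      · push Not at hc0
        have h6 : ‖g x‖ ^ 2 ≤ 0 := hx.trans (mul_nonpos_of_nonpos_of_nonneg hc0.le (by positivity))
        have h7 : ‖g x‖ = 0 := by
          have := sq_nonneg ‖g x‖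
          nlinarith [norm_nonneg (g x)]
        rw [h7]; positivity
    have h5 := h4.comp_tendsto hsymm
    have h6 : (fun z => ‖(l ∘ e.symm) z‖ ^ m) =O[𝓝 (e p)] fun z => ‖z - e p‖ ^ m :=
      hLO.norm_left.pow m
    exact h5.trans h6
  have hzero := eventually_zero_of_flat hGan hflat
  -- contradiction
  have hz2 : ∀ᶠ x in 𝓝 p, g x = 0 := by
    have h1 : Tendsto e (𝓝 p) (𝓝 (e p)) := e.continuousAt hps
    filter_upwards [h1.eventually hzero, e.open_source.mem_nhds hps] with x hx hxs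
    simpa only [Function.comp_apply, e.left_inv hxs] using hx
  obtain ⟨B, hB, hBo, hpB⟩ := mem_nhds_iff.1 hz2
  obtain ⟨x, hx, hx0⟩ := hrep.nz (B ∩ U) (hBo.inter hrep.isOpen) inter_subset_right ⟨p, hpB, hpU⟩
  exact hx0 (hB hx.1)

end

end Vale.Agent.P267.H757
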